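import Vale.Agent.P299.H904.Defs

/-!
# Sections of the powers of the anticanonical bundle of a complex manifold
-/

open scoped Manifold ContDiff Topology
open Set Filter

noncomputable section

namespace Vale.Agent.P299.H904

set_option linter.unusedSectionVars false

section defs

variable {E H H' H'' : Type*} [NormedAddCommGroup E] [NormedSpace ℂ E]
  [TopologicalSpace H] [TopologicalSpace H'] [TopologicalSpace H'']
  (I : ModelWithCorners ℂ E H) (I' : ModelWithCorners ℂ E H') (I'' : ModelWithCorners ℂ E H'')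
  {M M' M'' : Type*} [TopologicalSpace M] [ChartedSpace H M]
  [TopologicalSpace M'] [ChartedSpace H' M'] [TopologicalSpace M''] [ChartedSpace H'' M'']

variable {I I' I''}

theorem jac_comp {f : M → M'} {g : M' → M''} {x : M} (hg : MDifferentiableAt I' I'' g (f x))
    (hf : MDifferentiableAt I I' f x) :
    jac I I'' (g ∘ f) x = jac I' I'' g (f x) * jac I I' f x := by
  unfold jac
  rw [mfderiv_comp x hg hf]
  exact LinearMap.det_comp (show E →L[ℂ] E from mfderiv I' I'' g (f x)).toLinearMap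
    (show E →L[ℂ] E from mfderiv I I' f x).toLinearMap

theorem jac_id (x : M) : jac I I (id : M → M) x = 1 := by
  unfold jac
  rw [mfderiv_id]
  exact LinearMap.det_id

theorem jac_congr {f g : M → M'} {x : M} (h : f =ᶠ[𝓝 x] g) : jac I I' f x = jac I I' g x := by
  unfold jac
  rw [h.mfderiv_eq]
  

theorem jac_eq_det_fderiv {f : E → E} {x : E} :
    jac 𝓘(ℂ, E) 𝓘(ℂ, E) f x = (fderiv ℂ f x).det := by
  unfold jac
  rw [mfderiv_eq_fderiv]
  

theorem jac_ne_zero_of_invertible {f : M → M'} {x : M}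
    (h : (show E →L[ℂ] E from mfderiv I I' f x).IsInvertible) : jac I I' f x ≠ 0 := by
  obtain ⟨e, he⟩ := h
  unfold jac
  rw [← he]
  exact (LinearEquiv.isUnit_det' e.toLinearEquiv).ne_zero

theorem jac_chart_ne_zero [IsManifold I 1 M] {x₀ x : M} (hx : x ∈ (chartAt H x₀).source) :
    jac I 𝓘(ℂ, E) (extChartAt I x₀) x ≠ 0 := by
  apply jac_ne_zero_of_invertible
  apply isInvertible_mfderiv_extChartAt
  rwa [extChartAt_source]

/-- The determinant is an analytic function on the space of endomorphisms. -/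
theorem contDiff_det [FiniteDimensional ℂ E] :
    ContDiff ℂ ω (fun A : E →L[ℂ] E => A.det) := by
  let b := Module.finBasis ℂ E
  have h : (fun A : E →L[ℂ] E => A.det) = fun A : E →L[ℂ] E =>
      Matrix.det (Matrix.of fun i j => b.repr (A (b j)) i) := by
    funext A
    rw [ContinuousLinearMap.det, ← LinearMap.det_toMatrix b]
    congr 1
    ext i j
    simp [LinearMap.toMatrix_apply]
  rw [h]
  simp only [Matrix.det_apply]
  refine ContDiff.sum fun σ _ => ?_
  refine ContDiff.const_smul _ ?_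
  refine contDiff_prod fun i _ => ?_
  simp only [Matrix.of_apply]
  have h1 : ContDiff ℂ ω (fun A : E →L[ℂ] E => A (b i)) :=
    (ContinuousLinearMap.apply ℂ E (b i)).contDiff
  exact ((LinearMap.toContinuousLinearMap
    ((LinearMap.proj (σ i)).comp b.equivFun.toLinearMap)).contDiff).comp h1

theorem continuous_det' [FiniteDimensional ℂ E] : Continuous (fun A : E →L[ℂ] E => A.det) :=
  contDiff_det.continuous

variable [I.Boundaryless] [I'.Boundaryless] [IsManifold I ω M] [IsManifold I' ω M']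

theorem mdiffAt_symm {x₀ : M} {z : E} (hz : z ∈ (extChartAt I x₀).target) :
    MDifferentiableAt 𝓘(ℂ, E) I (extChartAt I x₀).symm z := by
  have := mdifferentiableWithinAt_extChartAt_symm (I := I) hz
  rwa [I.range_eq_univ, mdifferentiableWithinAt_univ] at this

theorem mdiffAt_chart {x₀ x : M} (hx : x ∈ (chartAt H x₀).source) :
    MDifferentiableAt I 𝓘(ℂ, E) (extChartAt I x₀) x :=
  mdifferentiableAt_extChartAt hx

theorem mem_target {x₀ x : M} (hx : x ∈ (chartAt H x₀).source) :
    extChartAt I x₀ x ∈ (extChartAt I x₀).target :=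
  (extChartAt I x₀).map_source (by rwa [extChartAt_source])

theorem left_inv' {x₀ x : M} (hx : x ∈ (chartAt H x₀).source) :
    (extChartAt I x₀).symm (extChartAt I x₀ x) = x :=
  (extChartAt I x₀).left_inv (by rwa [extChartAt_source])

theorem source_mem {x₀ x : M} (hx : x ∈ (chartAt H x₀).source) :
    (chartAt H x₀).source ∈ 𝓝 x := (chartAt H x₀).open_source.mem_nhds hx

/-- A map to the model space, in a chart. -/
theorem jac_eq_fderiv_mul {f : M → E} {x₀ x : M} (hx : x ∈ (chartAt H x₀).source)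
    (hf : MDifferentiableAt I 𝓘(ℂ, E) f x) :
    jac I 𝓘(ℂ, E) f x =
      (fderiv ℂ (f ∘ (extChartAt I x₀).symm) (extChartAt I x₀ x)).det *
        jac I 𝓘(ℂ, E) (extChartAt I x₀) x := by
  have h1 : f =ᶠ[𝓝 x] (f ∘ (extChartAt I x₀).symm) ∘ (extChartAt I x₀) := by
    filter_upwards [source_mem hx] with y hy
    simp only [Function.comp_apply, left_inv' hy]
  rw [jac_congr h1, jac_comp _ (mdiffAt_chart hx), jac_eq_det_fderiv]
  refine MDifferentiableAt.comp (I' := I) _ ?_ (mdiffAt_symm (mem_target hx))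
  rwa [left_inv' hx]

/-- A map to the model space which is holomorphic: the ratio of its Jacobian and of the Jacobian of
the chart is holomorphic. -/
theorem contMDiffAt_jac_div [FiniteDimensional ℂ E] {f : M → E} {x₀ x : M}
    (hx : x ∈ (chartAt H x₀).source) (hf : ContMDiffAt I 𝓘(ℂ, E) ω f x) :
    ContMDiffAt I 𝓘(ℂ, ℂ) ω
      (fun y => jac I 𝓘(ℂ, E) f y / jac I 𝓘(ℂ, E) (extChartAt I x₀) y) x := by
  have hF : ContDiffAt ℂ ω (f ∘ (extChartAt I x₀).symm) (extChartAt I x₀ x) := by
    rw [← contMDiffAt_iff_contDiffAt]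
    refine ContMDiffAt.comp (I' := I) _ (by rwa [left_inv' hx]) ?_
    have := contMDiffOn_extChartAt_symm (I := I) (n := ω) x₀ _ (mem_target hx)
    exact this.contMDiffAt ((isOpen_extChartAt_target x₀).mem_nhds (mem_target hx))
  have hG : ContDiffAt ℂ ω (fun z => (fderiv ℂ (f ∘ (extChartAt I x₀).symm) z).det)
      (extChartAt I x₀ x) :=
    contDiff_det.contDiffAt.comp _ (hF.fderiv_right (m := ω) (by simp))
  have hH : ContMDiffAt I 𝓘(ℂ, ℂ) ω (fun y =>
      (fderiv ℂ (f ∘ (extChartAt I x₀).symm) (extChartAt I x₀ y)).det) x :=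
    hG.contMDiffAt.comp x (contMDiffAt_extChartAt' hx)
  refine hH.congr_of_eventuallyEq ?_
  have h2 : ∀ᶠ y in 𝓝 x, ContMDiffAt I 𝓘(ℂ, E) ω f y :=
    (contMDiffAt_iff_contMDiffAt_nhds (by simp)).1 hf
  filter_upwards [source_mem hx, h2] with y hy hfy
  rw [jac_eq_fderiv_mul hy (hfy.mdifferentiableAt (by simp)),
    mul_div_cancel_right₀ _ (jac_chart_ne_zero hy)]

/-- The Jacobian of the second chart over the Jacobian of the first one. -/
theorem contMDiffAt_jac_chart_div [FiniteDimensional ℂ E] {x₀ x₁ x : M}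
    (hx : x ∈ (chartAt H x₀).source) (hx1 : x ∈ (chartAt H x₁).source) :
    ContMDiffAt I 𝓘(ℂ, ℂ) ω
      (fun y => jac I 𝓘(ℂ, E) (extChartAt I x₁) y / jac I 𝓘(ℂ, E) (extChartAt I x₀) y) x :=
  contMDiffAt_jac_div hx (contMDiffAt_extChartAt' hx1)

/-- A section is holomorphic in all charts. -/
theorem IsAntiAt.chart [FiniteDimensional ℂ E] {m : ℕ} {σ : M → ℂ} {x₀ x : M}
    (hσ : IsAntiAt I m σ x) (hx : x ∈ (chartAt H x₀).source) :
    ContMDiffAt I 𝓘(ℂ, ℂ) ω (fun y => σ y * jac I 𝓘(ℂ, E) (extChartAt I x₀) y ^ m) x := by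
  have h1 := contMDiffAt_jac_chart_div (I := I) (mem_chart_source H x) hx
  have h2 := ContMDiffAt.mul hσ (h1.pow m)
  refine h2.congr_of_eventuallyEq ?_
  filter_upwards [source_mem (mem_chart_source H x)] with y hy
  have h3 := pow_ne_zero m (jac_chart_ne_zero (I := I) hy)
  rw [Pi.mul_apply]
  rw [div_pow]
  field_simp

theorem isAntiAt_of_chart [FiniteDimensional ℂ E] {m : ℕ} {σ : M → ℂ} {x₀ x : M}
    (hx : x ∈ (chartAt H x₀).source)
    (hσ : ContMDiffAt I 𝓘(ℂ, ℂ) ω (fun y => σ y * jac I 𝓘(ℂ, E) (extChartAt I x₀) y ^ m) x) :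
    IsAntiAt I m σ x := by
  have h1 := contMDiffAt_jac_chart_div (I := I) hx (mem_chart_source H x)
  have h2 := ContMDiffAt.mul hσ (h1.pow m)
  refine h2.congr_of_eventuallyEq ?_
  filter_upwards [source_mem hx] with y hy
  have h3 := pow_ne_zero m (jac_chart_ne_zero (I := I) hy)
  rw [Pi.mul_apply]
  rw [div_pow]
  field_simp

/-- The pull back of a section under a local biholomorphism. -/
theorem IsAntiAt.pull [FiniteDimensional ℂ E] {m : ℕ} {σ : M' → ℂ} {f : M → M'} {x : M}
    (hf : ContMDiffAt I I' ω f x) (hj : jac I I' f x ≠ 0) (hσ : IsAntiAt I' m σ (f x)) :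
    IsAntiAt I m (fun y => σ (f y) / jac I I' f y ^ m) x := by
  have h1 : ContMDiffAt I 𝓘(ℂ, E) ω (extChartAt I' (f x) ∘ f) x :=
    (contMDiffAt_extChartAt (I := I') (x := f x)).comp x hf
  have h2 := contMDiffAt_jac_div (mem_chart_source H x) h1
  have hev : ∀ᶠ y in 𝓝 x, ContMDiffAt I I' ω f y ∧ f y ∈ (chartAt H' (f x)).source :=
    ((contMDiffAt_iff_contMDiffAt_nhds (by simp)).1 hf).and
      (hf.continuousAt (source_mem (mem_chart_source H' (f x))))
  have hcomp : ∀ᶠ y in 𝓝 x, jac I 𝓘(ℂ, E) (extChartAt I' (f x) ∘ f) y =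
      jac I' 𝓘(ℂ, E) (extChartAt I' (f x)) (f y) * jac I I' f y := by
    filter_upwards [hev] with y hy
    exact jac_comp (mdiffAt_chart hy.2) (hy.1.mdifferentiableAt (by simp))
  have h3 : jac I 𝓘(ℂ, E) (extChartAt I' (f x) ∘ f) x / jac I 𝓘(ℂ, E) (extChartAt I x) x ≠ 0 := by
    rw [hcomp.self_of_nhds]
    exact div_ne_zero (mul_ne_zero (jac_chart_ne_zero (mem_chart_source H' (f x))) hj)
      (jac_chart_ne_zero (mem_chart_source H x))
  have h4 : ContMDiffAt I 𝓘(ℂ, ℂ) ω (fun y => σ (f y) *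
      jac I' 𝓘(ℂ, E) (extChartAt I' (f x)) (f y) ^ m) x :=
    ContMDiffAt.comp x (f := f) (g := fun z => σ z * jac I' 𝓘(ℂ, E) (extChartAt I' (f x)) z ^ m)
      hσ hf
  have h5 := ContMDiffAt.mul h4 ((h2.inv₀ h3).pow m)
  refine h5.congr_of_eventuallyEq ?_
  filter_upwards [hcomp, hev, source_mem (mem_chart_source H x)] with y hy hy2 hy3
  rw [Pi.mul_apply]
  rw [hy]
  have h6 := jac_chart_ne_zero (I := I') hy2.2
  have h7 := jac_chart_ne_zero (I := I) hy3
  rw [inv_div, div_pow, mul_pow]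
  field_simp

end defs

end Vale.Agent.P299.H904
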