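import Vale.Agent.P299.H904.Sect

/-!
# Descent of pluri-anticanonical sections along local biholomorphisms; norms
-/

open scoped Manifold ContDiff Topology
open Set Filter

noncomputable section

set_option linter.unusedSectionVars false

namespace Vale.Agent.P299.H904

variable {E H H' : Type*} [NormedAddCommGroup E] [NormedSpace ℂ E]
  [TopologicalSpace H] [TopologicalSpace H']
  {I : ModelWithCorners ℂ E H} {I' : ModelWithCorners ℂ E H'}
  {M M' : Type*} [TopologicalSpace M] [ChartedSpace H M]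
  [TopologicalSpace M'] [ChartedSpace H' M']
  [I.Boundaryless] [IsManifold I ω M] [I'.Boundaryless] [IsManifold I' ω M']
  [FiniteDimensional ℂ E]

theorem jac_mul_jac_localSection {q : M → M'} {g : M' → M} {y : M'}
    (hq : MDifferentiableAt I I' q (g y)) (hg : MDifferentiableAt I' I g y)
    (hqg : ∀ᶠ z in 𝓝 y, q (g z) = z) : jac I I' q (g y) * jac I' I g y = 1 := by
  rw [← jac_comp hq hg, ← jac_id (I := I') (M := M') y]
  exact jac_congr hqg

theorem jac_ne_zero_of_isLocalDiffeomorphAt {q : M → M'} {a : M}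
    (hq : IsLocalDiffeomorphAt I I' ω q a) : jac I I' q a ≠ 0 := by
  have h1 := hq.localInverse_eventuallyEq_right
  have h2 : hq.localInverse (q a) = a := hq.localInverse_left_inv hq.localInverse_mem_target
  have h3 := jac_mul_jac_localSection (I := I) (I' := I') (q := q) (g := hq.localInverse)
    (y := q a) (by rw [h2]; exact hq.mdifferentiableAt (by simp))
    (hq.localInverse_mdifferentiableAt (by simp)) h1
  rw [h2] at h3
  exact left_ne_zero_of_mul_eq_one h3

/-- A continuous local section of a local biholomorphism is holomorphic. -/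
theorem contMDiffAt_localSection {q : M → M'} {a : M} (hq : IsLocalDiffeomorphAt I I' ω q a)
    {g : M' → M} (hga : g (q a) = a) (hg : ContinuousAt g (q a))
    (hqg : ∀ᶠ y in 𝓝 (q a), q (g y) = y) : ContMDiffAt I' I ω g (q a) := by
  refine hq.localInverse_contMDiffAt.congr_of_eventuallyEq ?_
  have h1 : ∀ᶠ y in 𝓝 (q a), g y ∈ hq.localInverse.target :=
    hg.eventually (by
      rw [hga]
      exact hq.localInverse.open_target.mem_nhds hq.localInverse_mem_target)
  filter_upwards [h1, hqg] with y hy hy2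
  rw [← hq.localInverse_left_inv hy, hy2]

/-- The push forward of a section along a local section `g` of a local biholomorphism `q`. -/
theorem IsAntiAt.push {q : M → M'} {a : M} {m : ℕ} {σ : M → ℂ}
    (hq : IsLocalDiffeomorphAt I I' ω q a) (hσ : IsAntiAt I m σ a)
    {g : M' → M} (hga : g (q a) = a) (hg : ContinuousAt g (q a))
    (hqg : ∀ᶠ y in 𝓝 (q a), q (g y) = y) :
    IsAntiAt I' m (fun y => σ (g y) * jac I I' q (g y) ^ m) (q a) := by
  have hgs := contMDiffAt_localSection hq hga hg hqg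
  have hqs : ContMDiffAt I I' ω q (g (q a)) := by rw [hga]; exact hq.contMDiffAt
  have hev : ∀ᶠ y in 𝓝 (q a), jac I I' q (g y) * jac I' I g y = 1 := by
    have h1 := (contMDiffAt_iff_contMDiffAt_nhds (by simp)).1 hgs
    have h2 := hg.eventually ((contMDiffAt_iff_contMDiffAt_nhds (by simp)).1 hqs)
    filter_upwards [h1, h2, hqg.eventually_nhds] with y hy1 hy2 hy3
    exact jac_mul_jac_localSection (hy2.mdifferentiableAt (by simp))
      (hy1.mdifferentiableAt (by simp)) hy3
  have hj : jac I' I g (q a) ≠ 0 := right_ne_zero_of_mul_eq_one hev.self_of_nhds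
  refine (IsAntiAt.pull (I := I') (I' := I) (σ := σ) (f := g) (m := m) hgs hj
    (by rw [hga]; exact hσ)).congr ?_
  filter_upwards [hev] with y hy
  have h3 : jac I' I g y ≠ 0 := right_ne_zero_of_mul_eq_one hy
  rw [eq_div_iff (pow_ne_zero m h3), mul_assoc, ← mul_pow, hy, one_pow, mul_one]

/-- **Descent.** A section on `M` which is compatible with the identifications of a surjective
local biholomorphism `p : M → M'` is the pull back of a section on `M'`. -/
theorem exists_descend {p : M → M'} (hp : IsLocalDiffeomorph I I' ω p)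
    (hsurj : Function.Surjective p) {m : ℕ} {σ : M → ℂ} (hσ : IsAnti I m σ)
    (hc : ∀ a b, p a = p b → σ a * jac I I' p a ^ m = σ b * jac I I' p b ^ m) :
    ∃ τ : M' → ℂ, IsAnti I' m τ ∧ ∀ a, τ (p a) = σ a * jac I I' p a ^ m := by
  choose s hs using hsurj
  refine ⟨fun y => σ (s y) * jac I I' p (s y) ^ m, fun y => ?_, fun a => ?_⟩
  · obtain ⟨a, rfl⟩ : ∃ a, p a = y := ⟨s y, hs y⟩
    have hpa := hp a
    refine (IsAntiAt.push hpa (hσ a) (g := hpa.localInverse)
      (hpa.localInverse_left_inv hpa.localInverse_mem_target)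
      hpa.localInverse_contMDiffAt.continuousAt hpa.localInverse_eventuallyEq_right).congr ?_
    filter_upwards [hpa.localInverse_eventuallyEq_right] with y hy
    exact hc _ _ (by rw [hs]; exact hy.symm)
  · exact hc _ _ (hs _)

/-- **Norm.** Let `q : M → M'` be a covering map with finite fibres, a local biholomorphism, `M`
and `M'` connected. If `M` has a nonzero section of the `m`-th power of the anticanonical bundle,
then `M'` has one of the `(d m)`-th power, where `d` is the number of sheets. -/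
theorem exists_norm [PreconnectedSpace M] [ConnectedSpace M'] {q : M → M'}
    (hq : IsLocalDiffeomorph I I' ω q) (hcov : IsCoveringMap q)
    (hfin : ∀ y, (q ⁻¹' {y}).Finite) (hne : ∀ y, (q ⁻¹' {y}).Nonempty)
    {m : ℕ} {σ : M → ℂ} (hσ : IsAnti I m σ) (h0 : ∃ x, σ x ≠ 0) :
    ∃ (d : ℕ) (τ : M' → ℂ), 0 < d ∧ IsAnti I' (d * m) τ ∧ ∃ y, τ y ≠ 0 := by
  classical
  -- the fibres
  let F : M' → Finset M := fun y => (hfin y).toFinset
  have hF : ∀ y x, x ∈ F y ↔ q x = y := fun y x => by simp [F]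
  -- local description of the fibres
  have hloc : ∀ y₀ : M', ∃ (g : (q ⁻¹' {y₀}) → M' → M) (U : Set M'), IsOpen U ∧ y₀ ∈ U ∧
      (∀ i, ContinuousOn (g i) U) ∧ (∀ i, ∀ y ∈ U, q (g i y) = y) ∧
      (∀ y ∈ U, Function.Injective (fun i => g i y)) ∧
      (∀ x, q x ∈ U → ∃ i, g i (q x) = x) := by
    intro y₀
    obtain ⟨_, U, hyU, hU, -, h, hh⟩ := hcov y₀
    have hq' : ∀ (y : M') (hy : y ∈ U) (i : q ⁻¹' {y₀}), q (h.symm (⟨y, hy⟩, i)).1 = y := by
      intro y hy i
      rw [← hh, Homeomorph.apply_symm_apply]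
    refine ⟨fun i y => if hy : y ∈ U then (h.symm (⟨y, hy⟩, i)).1 else i.1, U, hU, hyU,
      fun i => ?_, fun i y hy => ?_, fun y hy i j hij => ?_, fun x hx => ?_⟩
    · rw [continuousOn_iff_continuous_domRestrict]
      have h1 : Continuous fun y : U => (h.symm (y, i)).1 :=
        continuous_subtype_val.comp (h.symm.continuous.comp (by fun_prop))
      refine h1.congr fun y => ?_
      simp [Set.domRestrict, y.2]
    · simp only [dif_pos hy]
      exact hq' y hy i
    · simp only [dif_pos hy] at hij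
      have := h.symm.injective (Subtype.ext hij)
      exact (Prod.mk.inj this).2
    · refine ⟨(h ⟨x, hx⟩).2, ?_⟩
      simp only [dif_pos hx]
      have h2 : ((⟨q x, hx⟩ : U), (h ⟨x, hx⟩).2) = h ⟨x, hx⟩ :=
        Prod.ext (Subtype.ext (hh ⟨x, hx⟩).symm) rfl
      rw [h2, Homeomorph.symm_apply_apply]
  choose g U hU hyU hgc hgq hgi hgs using hloc
  have hFt : ∀ y₀ : M', Finite (q ⁻¹' {y₀}) := hfin
  let fi : ∀ y₀ : M', Fintype (q ⁻¹' {y₀}) := fun y₀ => Fintype.ofFinite _
  have hprod : ∀ (y₀ : M') (φ : M → ℂ), ∀ y ∈ U y₀,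
      ∏ x ∈ F y, φ x = ∏ i : q ⁻¹' {y₀}, φ (g y₀ i y) := by
    intro y₀ φ y hy
    symm
    refine Finset.prod_bij (fun i _ => g y₀ i y) (fun i _ => ?_) (fun i _ j _ h => ?_)
      (fun x hx => ?_) (fun i _ => rfl)
    · rw [hF, hgq y₀ i y hy]
    · exact hgi y₀ y hy h
    · rw [hF] at hx
      subst hx
      obtain ⟨i, hi⟩ := hgs y₀ x hy
      exact ⟨i, Finset.mem_univ i, hi⟩
  have hcard : ∀ (y₀ : M'), ∀ y ∈ U y₀, (F y).card = Fintype.card (q ⁻¹' {y₀}) := by
    intro y₀ y hy
    symm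
    refine Finset.card_bij (fun i _ => g y₀ i y) (fun i _ => ?_) (fun i _ j _ h => ?_)
      (fun x hx => ?_)
    · rw [hF, hgq y₀ i y hy]
    · exact hgi y₀ y hy h
    · rw [hF] at hx
      subst hx
      obtain ⟨i, hi⟩ := hgs y₀ x hy
      exact ⟨i, Finset.mem_univ i, hi⟩
  -- the number of sheets
  have hlc : IsLocallyConstant fun y => (F y).card := by
    rw [IsLocallyConstant.iff_eventually_eq]
    intro y₀
    filter_upwards [(hU y₀).mem_nhds (hyU y₀)] with y hy
    rw [hcard y₀ y hy, hcard y₀ y₀ (hyU y₀)]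
  obtain ⟨y₁⟩ : Nonempty M' := inferInstance
  have hconst : ∀ y, (F y).card = (F y₁).card := fun y =>
    hlc.apply_eq_of_preconnectedSpace y y₁
  have hdpos : 0 < (F y₁).card := by
    rw [Finset.card_pos]
    obtain ⟨x, hx⟩ := hne y₁
    exact ⟨x, (hF _ _).2 hx⟩
  refine ⟨(F y₁).card, fun y => ∏ x ∈ F y, (σ x * jac I I' q x ^ m), hdpos, fun y₀ => ?_, ?_⟩
  · -- holomorphy
    have h1 : ∀ i : q ⁻¹' {y₀}, IsAntiAt I' m
        (fun y => σ (g y₀ i y) * jac I I' q (g y₀ i y) ^ m) y₀ := by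
      intro i
      have h2 := hgq y₀ i y₀ (hyU y₀)
      have h3 := IsAntiAt.push (I := I) (I' := I') (q := q) (a := g y₀ i y₀) (m := m) (σ := σ)
        (hq _) (hσ _) (g := g y₀ i) (by rw [h2])
        (by rw [h2]; exact (hgc y₀ i).continuousAt ((hU y₀).mem_nhds (hyU y₀)))
        (by
          rw [h2]
          filter_upwards [(hU y₀).mem_nhds (hyU y₀)] with y hy
          exact hgq y₀ i y hy)
      rwa [h2] at h3
    have h4 := IsAntiAt.prod (I := I') (S := (Finset.univ : Finset (q ⁻¹' {y₀})))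
      (m := fun _ => m) (x := y₀) fun i _ => h1 i
    rw [Finset.sum_const, smul_eq_mul, Finset.card_univ, ← hcard y₀ y₀ (hyU y₀), hconst] at h4
    refine h4.congr ?_
    filter_upwards [(hU y₀).mem_nhds (hyU y₀)] with y hy
    exact hprod y₀ _ y hy
  · -- the norm is not zero
    have hdense := hσ.dense_ne h0
    have hstep : ∀ (i : q ⁻¹' {y₁}) (W : Set M'), IsOpen W → W ⊆ U y₁ → W.Nonempty →
        ∃ y ∈ W, σ (g y₁ i y) ≠ 0 := by
      intro i W hW hWU ⟨y, hy⟩
      by_contra hcon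
      push Not at hcon
      have hqy := hgq y₁ i y (hWU hy)
      obtain ⟨Φ, hΦ1, hΦ2⟩ := hq (g y₁ i y)
      have hcq : ContinuousAt q (g y₁ i y) := (hq _).contMDiffAt.continuousAt
      have hcg : ContinuousAt (g y₁ i) (q (g y₁ i y)) := by
        rw [hqy]
        exact (hgc y₁ i).continuousAt ((hU y₁).mem_nhds (hWU hy))
      have h1 : ∀ᶠ x in 𝓝 (g y₁ i y), σ x = 0 := by
        have e1 : ∀ᶠ x in 𝓝 (g y₁ i y), x ∈ Φ.source := Φ.open_source.mem_nhds hΦ1
        have e2 : ∀ᶠ x in 𝓝 (g y₁ i y), g y₁ i (q x) ∈ Φ.source := by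
          have : Tendsto (fun x => g y₁ i (q x)) (𝓝 (g y₁ i y)) (𝓝 (g y₁ i (q (g y₁ i y)))) :=
            hcg.tendsto.comp hcq.tendsto
          rw [hqy] at this
          exact this (Φ.open_source.mem_nhds hΦ1)
        have e3 : ∀ᶠ x in 𝓝 (g y₁ i y), q x ∈ W := hcq (by rw [hqy]; exact hW.mem_nhds hy)
        filter_upwards [e1, e2, e3] with x hx1 hx2 hx3
        have h5 : g y₁ i (q x) = x := by
          refine Φ.injOn hx2 hx1 ?_
          have h6 := hΦ2 hx1
          have h7 := hΦ2 hx2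
          rw [← h6, ← h7, hgq y₁ i _ (hWU hx3)]
        rw [← h5]
        exact hcon _ hx3
      obtain ⟨x, hx1, hx2⟩ := mem_closure_iff_nhds.1 (hdense (g y₁ i y)) _ h1
      exact hx2 hx1
    have hind : ∀ S : Finset (q ⁻¹' {y₁}), ∃ W : Set M', IsOpen W ∧ W ⊆ U y₁ ∧ W.Nonempty ∧
        ∀ y ∈ W, ∀ i ∈ S, σ (g y₁ i y) ≠ 0 := by
      intro S
      induction S using Finset.induction_on with
      | empty => exact ⟨U y₁, hU y₁, subset_rfl, ⟨y₁, hyU y₁⟩, by simp⟩
      | insert i S hi ih =>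
        obtain ⟨W, hW, hWU, hWn, hWS⟩ := ih
        obtain ⟨y, hy, hyi⟩ := hstep i W hW hWU hWn
        have hc : ContinuousAt (g y₁ i) y := (hgc y₁ i).continuousAt ((hU y₁).mem_nhds (hWU hy))
        have h1 := hc.eventually (hσ.isOpen_ne.mem_nhds hyi)
        obtain ⟨V, hV1, hV2, hV3⟩ := mem_nhds_iff.1 h1
        refine ⟨W ∩ V, hW.inter hV2, inter_subset_left.trans hWU, ⟨y, hy, hV3⟩, ?_⟩
        intro z hz j hj
        rcases Finset.mem_insert.1 hj with rfl | hj
        · exact hV1 hz.2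
        · exact hWS z hz.1 j hj
    obtain ⟨W, -, hWU, ⟨y, hy⟩, hWS⟩ := hind Finset.univ
    refine ⟨y, ?_⟩
    show ∏ x ∈ F y, (σ x * jac I I' q x ^ m) ≠ 0
    rw [hprod y₁ (fun x => σ x * jac I I' q x ^ m) y (hWU hy), Finset.prod_ne_zero_iff]
    intro i _
    exact mul_ne_zero (hWS y hy i (Finset.mem_univ i))
      (pow_ne_zero m (jac_ne_zero_of_isLocalDiffeomorphAt (hq _)))

end Vale.Agent.P299.H904
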