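import Mathlib

/-!
# Gordan's alternative
-/

namespace Vale.Agent.P299.H904

/-- Gordan's alternative over the rationals. -/
theorem gordan : ∀ (d : ℕ) (ι : Type) [Fintype ι] (v : ι → Fin d → ℚ),
    (∃ w : Fin d → ℚ, ∀ i, 0 < ∑ j, w j * v i j) ∨
    (∃ k : ι → ℚ, (∀ i, 0 ≤ k i) ∧ (∃ i, 0 < k i) ∧ ∀ j, ∑ i, k i * v i j = 0) := by
  classical
  intro d
  induction d with
  | zero =>
    intro ι _ v
    by_cases h : Nonempty ι
    · right
      obtain ⟨i⟩ := h
      refine ⟨fun _ => 1, fun _ => by norm_num, ⟨i, by norm_num⟩, fun j => j.elim0⟩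
    · left
      exact ⟨fun _ => 0, fun i => absurd ⟨i⟩ h⟩
  | succ d ih =>
    intro ι _ v
    let P := {i : ι // 0 < v i 0}
    let N := {i : ι // v i 0 < 0}
    let Z := {i : ι // v i 0 = 0}
    let v' : Z ⊕ (P × N) → Fin d → ℚ := fun x j =>
      match x with
      | Sum.inl z => v z.1 j.succ
      | Sum.inr pn => (- v pn.2.1 0) * v pn.1.1 j.succ + v pn.1.1 0 * v pn.2.1 j.succ
    rcases ih (Z ⊕ (P × N)) v' with ⟨w', hw'⟩ | ⟨k', hk0, ⟨x, hx⟩, hk⟩
    · left
      let lo : Finset ℚ := Finset.univ.image (fun p : P => -(∑ j : Fin d, w' j * v p.1 j.succ) / v p.1 0)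
      let hi : Finset ℚ := Finset.univ.image (fun n : N => (∑ j : Fin d, w' j * v n.1 j.succ) / (- v n.1 0))
      have hlohi : ∀ x ∈ lo, ∀ y ∈ hi, x < y := by
        intro x hx y hy
        simp only [lo, hi, Finset.mem_image, Finset.mem_univ, true_and] at hx hy
        obtain ⟨p, rfl⟩ := hx
        obtain ⟨n, rfl⟩ := hy
        have h1 := hw' (Sum.inr (p, n))
        have hp := p.2
        have hn := n.2
        simp only [v'] at h1
        have h2 : ∑ j : Fin d, w' j * (-v n.1 0 * v p.1 j.succ + v p.1 0 * v n.1 j.succ)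
            = (-v n.1 0) * (∑ j : Fin d, w' j * v p.1 j.succ)
              + v p.1 0 * (∑ j : Fin d, w' j * v n.1 j.succ) := by
          rw [Finset.mul_sum, Finset.mul_sum, ← Finset.sum_add_distrib]
          refine Finset.sum_congr rfl fun j _ => by ring
        rw [h2] at h1
        rw [div_lt_div_iff₀ hp (by linarith only [hn])]
        linarith
      obtain ⟨w0, hw1, hw2⟩ := Order.exists_between_finsets lo hi hlohi
      refine ⟨Fin.cons w0 w', fun i => ?_⟩
      rw [Fin.sum_univ_succ]
      simp only [Fin.cons_zero, Fin.cons_succ]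
      rcases lt_trichotomy (v i 0) 0 with h | h | h
      · have := hw2 ((∑ j : Fin d, w' j * v i j.succ) / (- v i 0))
          (Finset.mem_image.2 ⟨⟨i, h⟩, Finset.mem_univ _, rfl⟩)
        rw [lt_div_iff₀ (by linarith only [h])] at this
        linarith
      · have := hw' (Sum.inl ⟨i, h⟩)
        simp only [v'] at this
        rw [h]; linarith
      · have := hw1 (-(∑ j : Fin d, w' j * v i j.succ) / v i 0)
          (Finset.mem_image.2 ⟨⟨i, h⟩, Finset.mem_univ _, rfl⟩)
        rw [div_lt_iff₀ h] at this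
        linarith
    · right
      let k : ι → ℚ := fun i =>
        if hz : v i 0 = 0 then k' (Sum.inl ⟨i, hz⟩)
        else if hp : 0 < v i 0 then ∑ n : N, k' (Sum.inr (⟨i, hp⟩, n)) * (- v n.1 0)
        else if hn : v i 0 < 0 then ∑ p : P, k' (Sum.inr (p, ⟨i, hn⟩)) * v p.1 0
        else 0
      have kZ : ∀ z : Z, k z.1 = k' (Sum.inl z) := by
        intro z
        simp only [k]
        rw [dif_pos z.2]
      have kP : ∀ p : P, k p.1 = ∑ n : N, k' (Sum.inr (p, n)) * (- v n.1 0) := by
        intro p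
        simp only [k]
        rw [dif_neg p.2.ne', dif_pos p.2]
      have kN : ∀ n : N, k n.1 = ∑ p : P, k' (Sum.inr (p, n)) * v p.1 0 := by
        intro n
        simp only [k]
        rw [dif_neg n.2.ne, dif_neg (not_lt.2 n.2.le), dif_pos n.2]
      have hsum : ∀ f : ι → ℚ, ∑ i, f i = ∑ z : Z, f z.1 + ∑ p : P, f p.1 + ∑ n : N, f n.1 := by
        intro f
        have e1 : ∑ z : Z, f z.1 = ∑ i, if v i 0 = 0 then f i else 0 := by
          rw [← Finset.sum_filter, ← Finset.sum_subtype_eq_sum_filter]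
          simp only [Finset.subtype_univ]
          rfl
        have e2 : ∑ p : P, f p.1 = ∑ i, if 0 < v i 0 then f i else 0 := by
          rw [← Finset.sum_filter, ← Finset.sum_subtype_eq_sum_filter]
          simp only [Finset.subtype_univ]
          rfl
        have e3 : ∑ n : N, f n.1 = ∑ i, if v i 0 < 0 then f i else 0 := by
          rw [← Finset.sum_filter, ← Finset.sum_subtype_eq_sum_filter]
          simp only [Finset.subtype_univ]
          rfl
        rw [e1, e2, e3, ← Finset.sum_add_distrib, ← Finset.sum_add_distrib]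
        refine Finset.sum_congr rfl fun i _ => ?_
        rcases lt_trichotomy (v i 0) 0 with h | h | h
        · simp [h, h.ne, not_lt.2 h.le]
        · simp [h]
        · simp [h, h.ne', not_lt.2 h.le]
      refine ⟨k, ?_, ?_, ?_⟩
      · intro i
        rcases lt_trichotomy (v i 0) 0 with h | h | h
        · rw [kN ⟨i, h⟩]
          exact Finset.sum_nonneg fun p _ => mul_nonneg (hk0 _) p.2.le
        · rw [kZ ⟨i, h⟩]
          exact hk0 _
        · rw [kP ⟨i, h⟩]
          exact Finset.sum_nonneg fun n _ => mul_nonneg (hk0 _) (by linarith [n.2])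
      · rcases x with z | ⟨p, n⟩
        · exact ⟨z.1, by rw [kZ]; exact hx⟩
        · refine ⟨p.1, ?_⟩
          rw [kP]
          refine Finset.sum_pos' (fun n' _ => mul_nonneg (hk0 _) (by linarith [n'.2])) ⟨n, Finset.mem_univ _, ?_⟩
          exact mul_pos hx (by linarith [n.2])
      · intro j
        rw [hsum]
        simp only [kZ, kP, kN]
        refine Fin.cases ?_ (fun j => ?_) j
        · have hz : ∑ z : Z, k' (Sum.inl z) * v z.1 0 = 0 :=
            Finset.sum_eq_zero fun z _ => by rw [z.2, mul_zero]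
          rw [hz, zero_add]
          have h1 : ∑ p : P, (∑ n : N, k' (Sum.inr (p, n)) * (- v n.1 0)) * v p.1 0
              = ∑ p : P, ∑ n : N, k' (Sum.inr (p, n)) * (- v n.1 0) * v p.1 0 :=
            Finset.sum_congr rfl fun p _ => by rw [Finset.sum_mul]
          have h2 : ∑ n : N, (∑ p : P, k' (Sum.inr (p, n)) * v p.1 0) * v n.1 0
              = ∑ p : P, ∑ n : N, k' (Sum.inr (p, n)) * v p.1 0 * v n.1 0 := by
            rw [Finset.sum_comm]
            exact Finset.sum_congr rfl fun n _ => by rw [Finset.sum_mul]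
          rw [h1, h2, ← Finset.sum_add_distrib]
          refine Finset.sum_eq_zero fun p _ => ?_
          rw [← Finset.sum_add_distrib]
          exact Finset.sum_eq_zero fun n _ => by ring
        · have h0 := hk j
          rw [Fintype.sum_sum_type, Fintype.sum_prod_type] at h0
          simp only [v'] at h0
          have h1 : ∑ p : P, (∑ n : N, k' (Sum.inr (p, n)) * (- v n.1 0)) * v p.1 j.succ
              = ∑ p : P, ∑ n : N, k' (Sum.inr (p, n)) * (- v n.1 0) * v p.1 j.succ :=
            Finset.sum_congr rfl fun p _ => by rw [Finset.sum_mul]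
          have h2 : ∑ n : N, (∑ p : P, k' (Sum.inr (p, n)) * v p.1 0) * v n.1 j.succ
              = ∑ p : P, ∑ n : N, k' (Sum.inr (p, n)) * v p.1 0 * v n.1 j.succ := by
            rw [Finset.sum_comm]
            exact Finset.sum_congr rfl fun n _ => by rw [Finset.sum_mul]
          rw [h1, h2, add_assoc, ← Finset.sum_add_distrib]
          refine Eq.trans ?_ h0
          congr 1
          refine Finset.sum_congr rfl fun p _ => ?_
          rw [← Finset.sum_add_distrib]
          exact Finset.sum_congr rfl fun n _ => by ring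

/-- Integer form of Gordan's alternative. -/
theorem gordan_nat {d : ℕ} {α : Type} (S : Finset α) (v : α → Fin d → ℤ) :
    (∃ w : Fin d → ℚ, ∀ a ∈ S, 0 < ∑ j, w j * (v a j : ℚ)) ∨
    (∃ k : α → ℕ, (0 < ∑ a ∈ S, k a) ∧ ∀ j, ∑ a ∈ S, (k a : ℤ) * v a j = 0) := by
  classical
  rcases gordan d S (fun a j => (v a.1 j : ℚ)) with ⟨w, hw⟩ | ⟨k, hk0, ⟨x, hx⟩, hk⟩
  · left
    exact ⟨w, fun a ha => hw ⟨a, ha⟩⟩
  · right
    let D : ℕ := ∏ a : S, (k a).den
    have hD : 0 < D := Finset.prod_pos fun a _ => (k a).den_pos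
    have hint : ∀ a : S, ∃ n : ℕ, (n : ℚ) = k a * D := by
      intro a
      have hdvd : (k a).den ∣ D := Finset.dvd_prod_of_mem _ (Finset.mem_univ a)
      obtain ⟨c, hc⟩ := hdvd
      have hnum : 0 ≤ (k a).num := Rat.num_nonneg.2 (hk0 a)
      refine ⟨(k a).num.toNat * c, ?_⟩
      have h1 : (((k a).num.toNat : ℕ) : ℚ) = ((k a).num : ℚ) := by
        have : (((k a).num.toNat : ℕ) : ℤ) = (k a).num := Int.toNat_of_nonneg hnum
        exact_mod_cast this
      have h2 : k a * ((k a).den : ℚ) = (k a).num := Rat.mul_den_eq_num _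
      rw [Nat.cast_mul, h1, hc, Nat.cast_mul, ← mul_assoc, h2]
    choose n hn using hint
    refine ⟨fun a => if h : a ∈ S then n ⟨a, h⟩ else 0, ?_, ?_⟩
    · rw [← Finset.sum_attach]
      have : 0 < n x := by
        have : (0 : ℚ) < n x := by rw [hn]; exact mul_pos hx (by exact_mod_cast hD)
        exact_mod_cast this
      refine lt_of_lt_of_le this ?_
      have h3 : (fun a : S => if h : a.1 ∈ S then n ⟨a.1, h⟩ else 0) = fun a => n a := by
        ext a; simp
      simp only [h3]
      exact Finset.single_le_sum (f := fun a : S => n a) (fun a _ => Nat.zero_le _) (Finset.mem_attach _ x)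
    · intro j
      rw [← Finset.sum_attach]
      have h4 : (∑ a ∈ S.attach, ((if h : a.1 ∈ S then n ⟨a.1, h⟩ else 0 : ℕ) : ℤ) * v a.1 j : ℤ)
          = ∑ a ∈ S.attach, (n a : ℤ) * v a.1 j := by
        refine Finset.sum_congr rfl fun a _ => by simp
      rw [h4]
      have h5 : ((∑ a ∈ S.attach, (n a : ℤ) * v a.1 j : ℤ) : ℚ) = 0 := by
        push_cast
        have h6 : ∑ a ∈ S.attach, (n a : ℚ) * (v a.1 j : ℚ) = D * ∑ a : S, k a * (v a.1 j : ℚ) := by
          rw [Finset.mul_sum]
          refine Finset.sum_congr rfl fun a _ => by rw [hn]; ring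
        rw [h6, hk j, mul_zero]
      exact_mod_cast h5


end Vale.Agent.P299.H904
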