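import Vale.Agent.P299.H904.Growth

/-!
# No biholomorphism expands a log canonical volume form

`τ` is a finite family of sections of the `m`-th power of the anticanonical bundle of a compact
manifold, such that the volume forms `(∑ |τ_i|²)^{-c/m} · (smooth)^{1-c}` are locally integrable
for all `c < 1`. Then there is no automorphism `g` with `|g^* τ_i| ≤ q |τ_i|` for all `i`, `q < 1`.
-/

open scoped Manifold ContDiff Topology ENNReal
open Set Filter MeasureTheory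

noncomputable section

set_option linter.unusedSectionVars false

namespace Vale.Agent.P299.H904

variable {F G : Type*} [NormedAddCommGroup F] [NormedSpace ℂ F] [TopologicalSpace G]
  {J : ModelWithCorners ℂ F G} {Z : Type*} [TopologicalSpace Z] [ChartedSpace G Z]

/-- The image of a Borel set in a chart is a Borel set. -/
theorem measurableSet_image_chart [J.Boundaryless] [MeasurableSpace Z] [BorelSpace Z]
    [MeasurableSpace F] [BorelSpace F] {x₀ : Z} {A : Set Z}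
    (hA : MeasurableSet A) (hAs : A ⊆ (chartAt G x₀).source) :
    MeasurableSet (extChartAt J x₀ '' A) := by
  borelize G
  let e := chartAt G x₀
  let h := e.toHomeomorphSourceTarget
  have h1 : MeasurableSet ((Subtype.val : e.source → Z) ⁻¹' A) := measurable_subtype_coe hA
  have h2 : MeasurableSet (h '' ((Subtype.val : e.source → Z) ⁻¹' A)) :=
    h.measurableEmbedding.measurableSet_image.2 h1
  have h3 : MeasurableSet ((Subtype.val : e.target → G) ''
      (h '' ((Subtype.val : e.source → Z) ⁻¹' A))) :=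
    (MeasurableEmbedding.subtype_coe e.open_target.measurableSet).measurableSet_image.2 h2
  have h4 : MeasurableSet (J '' ((Subtype.val : e.target → G) ''
      (h '' ((Subtype.val : e.source → Z) ⁻¹' A)))) :=
    J.isClosedEmbedding.measurableEmbedding.measurableSet_image.2 h3
  convert h4 using 1
  ext w
  constructor
  · rintro ⟨x, hx, rfl⟩
    exact ⟨_, ⟨h ⟨x, hAs hx⟩, ⟨⟨x, hAs hx⟩, hx, rfl⟩, rfl⟩, rfl⟩
  · rintro ⟨_, ⟨_, ⟨⟨x, hx⟩, hxA, rfl⟩, rfl⟩, rfl⟩
    exact ⟨x, hxA, rfl⟩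

variable [J.Boundaryless] [IsManifold J ω Z] [FiniteDimensional ℂ F]

/-- A covering by a sequence of compact sets in chart domains, finitely many different ones. -/
theorem exists_seq_cover (J : ModelWithCorners ℂ F G) [CompactSpace Z] [Nonempty Z] :
    ∃ (S : Finset Z) (K : Z → Set Z) (s : ℕ → Z), (∀ z, IsCompact (K z)) ∧
      (∀ z, K z ⊆ (chartAt G z).source) ∧ (∀ i, s i ∈ S) ∧ (∀ z, K z ∈ 𝓝 z) ∧
      ∃ N : ℕ, ∀ x, ∃ i < N, x ∈ K (s i) := by
  classical
  have : LocallyCompactSpace Z :=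
    Manifold.locallyCompact_of_finiteDimensional J
  have h : ∀ s : Z, ∃ K ∈ 𝓝 s, K ⊆ (chartAt G s).source ∧ IsCompact K := fun s =>
    local_compact_nhds ((chartAt G s).open_source.mem_nhds (mem_chart_source _ s))
  choose K hK1 hK2 hK3 using h
  obtain ⟨S, -, hS⟩ := isCompact_univ.elim_nhds_subcover K (fun x _ => hK1 x)
  obtain ⟨z₀⟩ := (inferInstance : Nonempty Z)
  let e := S.equivFin
  refine ⟨insert z₀ S, K, fun i => if h : i < S.card then (e.symm ⟨i, h⟩).1 else z₀, hK3, hK2,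
    fun i => ?_, hK1, S.card, fun x => ?_⟩
  · dsimp only
    split_ifs with hi
    · exact Finset.mem_insert_of_mem (e.symm ⟨i, hi⟩).2
    · exact Finset.mem_insert_self _ _
  · have h1 := hS (mem_univ x)
    simp only [mem_iUnion] at h1
    obtain ⟨z, hz, hxz⟩ := h1
    refine ⟨(e ⟨z, hz⟩).1, (e ⟨z, hz⟩).2, ?_⟩
    dsimp only
    rw [dif_pos (e ⟨z, hz⟩).2]
    simpa using hxz

/-- The real inequality behind the choice of `c`. -/
theorem exists_c {δ q : ℝ} (hδ : 0 < δ) (hq0 : 0 < q) (hq1 : q < 1) {m : ℕ} (hm : 0 < m) :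
    ∃ c : ℝ, 0 ≤ c ∧ c < 1 ∧ 1 < δ ^ (2 - 2 * c) * (q ^ (2 * c / m))⁻¹ := by
  have hcont : ContinuousAt (fun c : ℝ => δ ^ (2 - 2 * c) * (q ^ (2 * c / m))⁻¹) 1 := by
    have h1 : ContinuousAt (fun c : ℝ => δ ^ (2 - 2 * c)) 1 :=
      ContinuousAt.rpow continuousAt_const (by fun_prop) (Or.inl hδ.ne')
    have h2 : ContinuousAt (fun c : ℝ => q ^ (2 * c / m)) 1 :=
      ContinuousAt.rpow continuousAt_const (by fun_prop) (Or.inl hq0.ne')
    exact h1.mul (h2.inv₀ (Real.rpow_pos_of_pos hq0 _).ne')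
  have h1 : 1 < δ ^ (2 - 2 * (1 : ℝ)) * (q ^ (2 * (1 : ℝ) / m))⁻¹ := by
    have : (2 : ℝ) - 2 * 1 = 0 := by norm_num
    rw [this, Real.rpow_zero, one_mul]
    refine (one_lt_inv₀ (Real.rpow_pos_of_pos hq0 _)).2 ?_
    have hm' : (0 : ℝ) < m := by exact_mod_cast hm
    exact Real.rpow_lt_one hq0.le hq1 (by positivity)
  have h2 := hcont.eventually (lt_mem_nhds h1)
  have h3 : ∀ᶠ c : ℝ in 𝓝[<] 1, 1 < δ ^ (2 - 2 * c) * (q ^ (2 * c / m))⁻¹ :=
    h2.filter_mono nhdsWithin_le_nhds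
  have h4 : ∀ᶠ c : ℝ in 𝓝[<] 1, 0 ≤ c :=
    (eventually_ge_nhds (show (0 : ℝ) < 1 by norm_num)).filter_mono nhdsWithin_le_nhds
  obtain ⟨c, hc⟩ := (h3.and (h4.and self_mem_nhdsWithin)).exists
  exact ⟨c, hc.2.1, hc.2.2, hc.1⟩

/-- The real determinant of a complex linear map. -/
theorem abs_det_restrictScalars (A : F →L[ℂ] F) :
    |(A.restrictScalars ℝ).det| = ‖A.det‖ ^ 2 := by
  have h1 : (A.restrictScalars ℝ).det = Complex.normSq A.det := by
    rw [ContinuousLinearMap.det, ContinuousLinearMap.det]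
    have h2 : ((A.restrictScalars ℝ : F →L[ℝ] F) : F →ₗ[ℝ] F) =
        (A : F →ₗ[ℂ] F).restrictScalars ℝ := rfl
    rw [h2, LinearMap.det_restrictScalars, Algebra.norm_complex_apply]
  rw [h1, Complex.normSq_eq_norm_sq, abs_of_nonneg (by positivity)]

/-- The inequality between the densities. -/
theorem density_ineq {ι : Type*} [Fintype ι] {m : ℕ} (hm : 0 < m) {a b : ι → ℂ} {d : ℂ}
    {δ q c : ℝ} (hδ : 0 < δ) (hq0 : 0 < q) (hc0 : 0 ≤ c) (hc1 : c < 1) (hd : δ ≤ ‖d‖)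
    (hab : ∀ i, ‖b i‖ ≤ ‖d‖ ^ m * (q * ‖a i‖)) :
    ENNReal.ofReal (δ ^ (2 - 2 * c) * (q ^ (2 * c / m))⁻¹) *
      (∑ i, ‖a i‖ₑ ^ 2) ^ (-(c / m)) ≤
    ENNReal.ofReal (‖d‖ ^ 2) * (∑ i, ‖b i‖ₑ ^ 2) ^ (-(c / m)) := by
  have hd0 : 0 < ‖d‖ := hδ.trans_le hd
  have hm' : (0 : ℝ) < m := by exact_mod_cast hm
  set y : ℝ := c / m with hy
  have hy0 : 0 ≤ y := by positivity
  set α : ℝ := ‖d‖ ^ (2 * m) * q ^ 2 with hα
  have hα0 : 0 < α := by positivity
  have h1 : ∑ i, ‖b i‖ₑ ^ 2 ≤ ENNReal.ofReal α * ∑ i, ‖a i‖ₑ ^ 2 := by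
    rw [Finset.mul_sum]
    refine Finset.sum_le_sum fun i _ => ?_
    have h2 : ‖b i‖ ^ 2 ≤ α * ‖a i‖ ^ 2 := by
      have := pow_le_pow_left₀ (norm_nonneg _) (hab i) 2
      calc ‖b i‖ ^ 2 ≤ (‖d‖ ^ m * (q * ‖a i‖)) ^ 2 := this
        _ = α * ‖a i‖ ^ 2 := by rw [hα]; ring
    rw [← ofReal_norm, ← ofReal_norm, ← ENNReal.ofReal_pow (norm_nonneg _),
      ← ENNReal.ofReal_pow (norm_nonneg _), ← ENNReal.ofReal_mul hα0.le]
    exact ENNReal.ofReal_le_ofReal h2
  have h2 : (ENNReal.ofReal α * ∑ i, ‖a i‖ₑ ^ 2) ^ (-y) ≤ (∑ i, ‖b i‖ₑ ^ 2) ^ (-y) := by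
    rw [ENNReal.rpow_neg, ENNReal.rpow_neg]
    exact ENNReal.inv_le_inv.2 (ENNReal.rpow_le_rpow h1 hy0)
  have hαy : ENNReal.ofReal α ^ y = ENNReal.ofReal (α ^ y) := ENNReal.ofReal_rpow_of_pos hα0
  have hαy0 : 0 < α ^ y := Real.rpow_pos_of_pos hα0 y
  have h3 : (ENNReal.ofReal α * ∑ i, ‖a i‖ₑ ^ 2) ^ (-y) =
      ENNReal.ofReal ((α ^ y)⁻¹) * (∑ i, ‖a i‖ₑ ^ 2) ^ (-y) := by
    rw [ENNReal.rpow_neg, ENNReal.mul_rpow_of_nonneg _ _ hy0, hαy, ENNReal.mul_inv,
      ENNReal.ofReal_inv_of_pos hαy0, ENNReal.rpow_neg]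
    · left
      exact (ENNReal.ofReal_pos.2 hαy0).ne'
    · left
      exact ENNReal.ofReal_ne_top
  have h4 : δ ^ (2 - 2 * c) * (q ^ (2 * c / m))⁻¹ ≤ ‖d‖ ^ 2 * (α ^ y)⁻¹ := by
    have h5 : α ^ y = ‖d‖ ^ (2 * c) * q ^ (2 * c / m) := by
      rw [hα, Real.mul_rpow (by positivity) (by positivity), ← Real.rpow_natCast ‖d‖,
        ← Real.rpow_mul hd0.le, ← Real.rpow_natCast q, ← Real.rpow_mul hq0.le, hy]
      congr 2
      · push_cast; field_simp
      · push_cast; ring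
    have h6 : ‖d‖ ^ 2 * (α ^ y)⁻¹ = ‖d‖ ^ (2 - 2 * c) * (q ^ (2 * c / m))⁻¹ := by
      rw [h5, mul_inv, ← mul_assoc, ← Real.rpow_natCast ‖d‖ 2, ← Real.rpow_neg hd0.le,
        ← Real.rpow_add hd0]
      norm_num
      left
      congr 1
    rw [h6]
    refine mul_le_mul_of_nonneg_right ?_ (by positivity)
    exact Real.rpow_le_rpow hδ.le hd (by linarith)
  calc ENNReal.ofReal (δ ^ (2 - 2 * c) * (q ^ (2 * c / m))⁻¹) * (∑ i, ‖a i‖ₑ ^ 2) ^ (-y)
      ≤ ENNReal.ofReal (‖d‖ ^ 2 * (α ^ y)⁻¹) * (∑ i, ‖a i‖ₑ ^ 2) ^ (-y) := by gcongr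
    _ = ENNReal.ofReal (‖d‖ ^ 2) * (ENNReal.ofReal α * ∑ i, ‖a i‖ₑ ^ 2) ^ (-y) := by
        rw [h3, ENNReal.ofReal_mul (by positivity), mul_assoc]
    _ ≤ _ := by gcongr

/-- **No expansion.** -/
theorem no_expansion [MeasurableSpace F] [BorelSpace F] (μ : Measure F) [μ.IsAddHaarMeasure]
    [CompactSpace Z] [T2Space Z] [Nonempty Z] {ι : Type*} [Fintype ι] {m : ℕ}
    (hm : 0 < m) {τ : ι → Z → ℂ} (hτ : ∀ i, IsAnti J m (τ i)) (hlc : IsLC J μ m τ)
    {g : Z → Z} (hg : ContMDiff J J ω g) (hgb : Function.Bijective g)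
    (hgj : ∀ x, jac J J g x ≠ 0) {q : ℝ} (hq0 : 0 < q) (hq1 : q < 1)
    (hgq : ∀ i x, ‖τ i (g x) / jac J J g x ^ m‖ ≤ q * ‖τ i x‖) :
    False := by
  classical
  borelize Z
  obtain ⟨S, K, s, hK, hKs, hsS, hKn, N, hN⟩ := exists_seq_cover (Z := Z) J
  -- Jacobians in charts
  let d : Z → Z → Z → ℂ := fun a b x =>
    jac J 𝓘(ℂ, F) (extChartAt J b ∘ g) x / jac J 𝓘(ℂ, F) (extChartAt J a) x
  have hgm : ∀ x, MDifferentiableAt J J g x := fun x => (hg x).mdifferentiableAt (by simp)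
  have hdm : ∀ a b x, g x ∈ (chartAt G b).source →
      d a b x = jac J 𝓘(ℂ, F) (extChartAt J b) (g x) * jac J J g x / jac J 𝓘(ℂ, F) (extChartAt J a) x := by
    intro a b x hb
    simp only [d]
    rw [jac_comp (mdiffAt_chart hb) (hgm x)]
  have hd0 : ∀ a b x, x ∈ (chartAt G a).source → g x ∈ (chartAt G b).source →
      d a b x ≠ 0 := by
    intro a b x ha hb
    rw [hdm a b x hb]
    exact div_ne_zero (mul_ne_zero (jac_chart_ne_zero hb) (hgj x)) (jac_chart_ne_zero ha)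
  obtain ⟨δ, hδ, hδd⟩ : ∃ δ > 0, ∀ a ∈ S, ∀ b ∈ S, ∀ x ∈ K a, g x ∈ K b → δ ≤ ‖d a b x‖ := by
    have h1 : ∀ a b, ∃ C, ∀ x ∈ K a ∩ g ⁻¹' K b, ‖(d a b x)⁻¹‖ ≤ C := by
      intro a b
      have hcomp : IsCompact (K a ∩ g ⁻¹' K b) :=
        (hK a).inter_right ((hK b).isClosed.preimage hg.continuous)
      refine hcomp.exists_bound_of_continuousOn fun x hx => ?_
      have hax := hKs a hx.1
      have hbx := hKs b hx.2
      have h2 : ContMDiffAt J 𝓘(ℂ, F) ω (extChartAt J b ∘ g) x :=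
        (contMDiffAt_extChartAt' hbx).comp x (hg x)
      have h3 := contMDiffAt_jac_div hax h2
      exact (h3.continuousAt.inv₀ (hd0 a b x hax hbx)).continuousWithinAt
    choose C hC using h1
    refine ⟨(1 + ∑ a ∈ S, ∑ b ∈ S, |C a b|)⁻¹, by positivity, fun a ha b hb x hx hgx => ?_⟩
    have h2 := hC a b x ⟨hx, hgx⟩
    have h4 := hd0 a b x (hKs a hx) (hKs b hgx)
    have h5 : |C a b| ≤ ∑ a ∈ S, ∑ b ∈ S, |C a b| :=
      (Finset.single_le_sum (f := fun b => |C a b|) (fun _ _ => abs_nonneg _) hb).trans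
        (Finset.single_le_sum (f := fun a => ∑ b ∈ S, |C a b|)
        (fun _ _ => Finset.sum_nonneg fun _ _ => abs_nonneg _) ha)
    rw [norm_inv] at h2
    have h6 := norm_pos_iff.2 h4
    rw [inv_le_comm₀ (by positivity) h6]
    exact (h2.trans (le_abs_self _)).trans (h5.trans (by linarith))
  obtain ⟨c, hc0, hc1, hc⟩ := exists_c hδ hq0 hq1 hm
  let h : Z → F → ℝ≥0∞ := fun a w => (∑ i, ‖coordAt J m a (τ i) w‖ₑ ^ 2) ^ (-(c / m))
  let A : ℕ → Set Z := disjointed fun i => K (s i)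
  have hAK : ∀ i, A i ⊆ K (s i) := fun i => disjointed_subset _ i
  have hAs : ∀ i, A i ⊆ (chartAt G (s i)).source := fun i => (hAK i).trans (hKs _)
  have hAm : ∀ i, MeasurableSet (A i) := fun i =>
    MeasurableSet.disjointed (fun i => (hK (s i)).measurableSet) i
  have hAd : Pairwise (Function.onFun Disjoint A) := disjoint_disjointed _
  have hAu : ⋃ i, A i = univ := by
    rw [iUnion_disjointed]
    refine eq_univ_of_forall fun x => ?_
    obtain ⟨i, -, hi⟩ := hN x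
    exact mem_iUnion.2 ⟨i, hi⟩
  have hAe : ∀ i, N ≤ i → A i = ∅ := by
    intro i hi
    refine eq_empty_of_forall_notMem fun x hx => ?_
    obtain ⟨k, hk, hxk⟩ := hN x
    simp only [A, disjointed_apply] at hx
    exact hx.2 (Finset.le_sup (f := fun i => K (s i)) (Finset.mem_Iio.2 (hk.trans_le hi)) hxk)
  let e : ℕ → Z → F := fun i => extChartAt J (s i)
  let e' : ℕ → F → Z := fun i => (extChartAt J (s i)).symm
  have he' : ∀ i x, x ∈ (chartAt G (s i)).source → e' i (e i x) = x :=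
    fun i x hx => left_inv' hx
  have hinj : ∀ i, InjOn (e i) (chartAt G (s i)).source := by
    intro i x hx y hy hxy
    rw [← he' i x hx, hxy, he' i y hy]
  -- the homeomorphism `g`
  let G : Z ≃ₜ Z := hg.continuous.homeoOfEquivCompactToT2 (f := Equiv.ofBijective g hgb)
  have hG : ∀ x, G x = g x := fun x => rfl
  let D : ℕ → ℕ → Set Z := fun i j => A i ∩ g ⁻¹' A j
  have hDm : ∀ i j, MeasurableSet (D i j) := fun i j =>
    (hAm i).inter (hg.continuous.measurable (hAm j))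
  have hgDm : ∀ i j, MeasurableSet (g '' D i j) := by
    intro i j
    exact G.measurableEmbedding.measurableSet_image.2 (hDm i j)
  -- the total mass
  let M : ℝ≥0∞ := ∑' j, ∫⁻ w in e j '' A j, h (s j) w ∂μ
  have hM1 : M = ∑' i, ∑' j, ∫⁻ w in e i '' D i j, h (s i) w ∂μ := by
    refine tsum_congr fun i => ?_
    have h1 : A i = ⋃ j, D i j := by
      simp only [D]
      rw [← inter_iUnion, ← preimage_iUnion, hAu, preimage_univ, inter_univ]
    have h2 : e i '' A i = ⋃ j, e i '' D i j := by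
      conv_lhs => rw [h1]
      rw [image_iUnion]
    rw [h2, lintegral_iUnion]
    · intro j
      exact measurableSet_image_chart (hDm i j) (inter_subset_left.trans (hAs i))
    · intro j k hjk
      refine Set.disjoint_left.2 ?_
      rintro _ ⟨x, hx, rfl⟩ ⟨y, hy, hxy⟩
      have h3 := hinj i (hAs i hy.1) (hAs i hx.1) hxy
      subst h3
      exact Set.disjoint_left.1 (hAd hjk) hx.2 hy.2
  have hM2 : M = ∑' j, ∑' i, ∫⁻ w in e j '' (g '' D i j), h (s j) w ∂μ := by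
    refine tsum_congr fun j => ?_
    have h1 : A j = ⋃ i, g '' D i j := by
      ext y
      constructor
      · intro hy
        obtain ⟨x, rfl⟩ := hgb.2 y
        have h2 : x ∈ ⋃ i, A i := hAu ▸ mem_univ x
        obtain ⟨i, hi⟩ := mem_iUnion.1 h2
        exact mem_iUnion.2 ⟨i, x, ⟨hi, hy⟩, rfl⟩
      · intro hy
        obtain ⟨i, x, hx, rfl⟩ := mem_iUnion.1 hy
        exact hx.2
    have h2 : e j '' A j = ⋃ i, e j '' (g '' D i j) := by
      conv_lhs => rw [h1]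
      rw [image_iUnion]
    rw [h2, lintegral_iUnion]
    · intro i
      refine measurableSet_image_chart (hgDm i j) ?_
      rintro _ ⟨x, hx, rfl⟩
      exact hAs j hx.2
    · intro i k hik
      refine Set.disjoint_left.2 ?_
      rintro _ ⟨_, ⟨x, hx, rfl⟩, rfl⟩ ⟨_, ⟨y, hy, rfl⟩, hxy⟩
      have h3 := hgb.1 (hinj j (hAs j hy.2) (hAs j hx.2) hxy)
      subst h3
      exact Set.disjoint_left.1 (hAd hik) hx.1 hy.1
  -- change of variables
  have hcv : ∀ i j, ENNReal.ofReal (δ ^ (2 - 2 * c) * (q ^ (2 * c / m))⁻¹) *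
      ∫⁻ w in e i '' D i j, h (s i) w ∂μ ≤ ∫⁻ w in e j '' (g '' D i j), h (s j) w ∂μ := by
    intro i j
    let φ : F → F := (e j ∘ g) ∘ e' i
    have hB : MeasurableSet (e i '' D i j) :=
      measurableSet_image_chart (hDm i j) (inter_subset_left.trans (hAs i))
    have h1 : e j '' (g '' D i j) = φ '' (e i '' D i j) := by
      rw [← image_comp, ← image_comp]
      refine image_congr fun x hx => ?_
      simp only [φ, Function.comp_apply]
      rw [he' i x (hAs i hx.1)]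
    have hφd : ∀ x ∈ D i j, DifferentiableAt ℂ φ (e i x) := by
      intro x hx
      have hxi := hAs i hx.1
      have h2 : MDifferentiableAt J 𝓘(ℂ, F) (e j ∘ g) x :=
        (mdiffAt_chart (hAs j hx.2)).comp x (hgm x)
      have h3 : MDifferentiableAt 𝓘(ℂ, F) 𝓘(ℂ, F) φ (e i x) := by
        refine MDifferentiableAt.comp (I' := J) _ ?_ (mdiffAt_symm (mem_target hxi))
        show MDifferentiableAt J 𝓘(ℂ, F) (e j ∘ g) (e' i (e i x))
        rwa [he' i x hxi]
      exact mdifferentiableAt_iff_differentiableAt.1 h3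
    have hφdet : ∀ x ∈ D i j, (fderiv ℂ φ (e i x)).det = d (s i) (s j) x := by
      intro x hx
      have hxi := hAs i hx.1
      have h2 : MDifferentiableAt J 𝓘(ℂ, F) (e j ∘ g) x :=
        (mdiffAt_chart (hAs j hx.2)).comp x (hgm x)
      have h3 := jac_eq_fderiv_mul (I := J) hxi h2
      simp only [d]
      rw [eq_div_iff (jac_chart_ne_zero hxi)]
      exact h3.symm
    have hφinj : InjOn φ (e i '' D i j) := by
      rintro _ ⟨x, hx, rfl⟩ _ ⟨y, hy, rfl⟩ hxy
      simp only [φ, Function.comp_apply] at hxy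
      rw [he' i x (hAs i hx.1), he' i y (hAs i hy.1)] at hxy
      rw [hgb.1 (hinj j (hAs j hx.2) (hAs j hy.2) hxy)]
    rw [h1, lintegral_image_eq_lintegral_abs_det_fderiv_mul μ hB
      (f' := fun w => (fderiv ℂ φ w).restrictScalars ℝ) _ hφinj]
    · rw [← lintegral_const_mul' _ _ ENNReal.ofReal_ne_top]
      refine setLIntegral_mono_ae' hB (Eventually.of_forall ?_)
      rintro _ ⟨x, hx, rfl⟩
      rw [abs_det_restrictScalars, hφdet x hx]
      have hxi := hAs i hx.1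
      refine density_ineq hm hδ hq0 hc0 hc1
        (hδd _ (hsS i) _ (hsS j) x (hAK i hx.1) (hAK j hx.2)) fun k => ?_
      have h2 : coordAt J m (s i) (τ k) (e i x) =
          τ k x * jac J 𝓘(ℂ, F) (extChartAt J (s i)) x ^ m := by
        show τ k (e' i (e i x)) * jac J 𝓘(ℂ, F) (extChartAt J (s i)) (e' i (e i x)) ^ m = _
        rw [he' i x hxi]
      have h3 : coordAt J m (s j) (τ k) (φ (e i x)) =
          τ k (g x) * jac J 𝓘(ℂ, F) (extChartAt J (s j)) (g x) ^ m := by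
        have h4 : e' j (φ (e i x)) = g x := by
          simp only [φ, Function.comp_apply]
          rw [he' i x hxi, he' j (g x) (hAs j hx.2)]
        show τ k (e' j (φ (e i x))) * jac J 𝓘(ℂ, F) (extChartAt J (s j)) (e' j (φ (e i x))) ^ m = _
        rw [h4]
      have h5 : τ k (g x) * jac J 𝓘(ℂ, F) (extChartAt J (s j)) (g x) ^ m =
          d (s i) (s j) x ^ m * ((τ k (g x) / jac J J g x ^ m) *
            jac J 𝓘(ℂ, F) (extChartAt J (s i)) x ^ m) := by
        rw [hdm _ _ x (hAs j hx.2)]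
        have h6 : jac J 𝓘(ℂ, F) (extChartAt J (s i)) x ≠ 0 := jac_chart_ne_zero (I := J) hxi
        have h7 := hgj x
        rw [div_pow, mul_pow]
        field_simp
      rw [h2, h3, h5, norm_mul, norm_mul, norm_mul (τ k x), norm_pow, ← mul_assoc q]
      gcongr
      exact hgq k x
    · rintro _ ⟨x, hx, rfl⟩
      exact ((hφd x hx).hasFDerivAt.restrictScalars ℝ).hasFDerivWithinAt
  have hMle : ENNReal.ofReal (δ ^ (2 - 2 * c) * (q ^ (2 * c / m))⁻¹) * M ≤ M := by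
    conv_rhs => rw [hM2, ENNReal.tsum_comm]
    conv_lhs => rw [hM1, ← ENNReal.tsum_mul_left]
    refine ENNReal.tsum_le_tsum fun i => ?_
    rw [← ENNReal.tsum_mul_left]
    exact ENNReal.tsum_le_tsum fun j => hcv i j
  -- finiteness
  have hMtop : M ≠ ⊤ := by
    have h1 : M = ∑ j ∈ Finset.range N, ∫⁻ w in e j '' A j, h (s j) w ∂μ := by
      refine tsum_eq_sum fun j hj => ?_
      rw [hAe j (by simpa using hj)]
      simp
    rw [h1]
    refine ENNReal.sum_ne_top.2 fun j _ => ?_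
    have h2 : IsCompact (e j '' K (s j)) := by
      refine (hK (s j)).image_of_continuousOn fun x hx => ?_
      exact (contMDiffAt_extChartAt' (n := ω) (hKs _ hx)).continuousAt.continuousWithinAt
    have h3 : ∫⁻ w in e j '' K (s j), h (s j) w ∂μ < ⊤ := by
      refine h2.induction_on (p := fun T => ∫⁻ w in T, h (s j) w ∂μ < ⊤) (by simp)
        (fun T T' hT hT' => (lintegral_mono_set hT).trans_lt hT')
        (fun T T' hT hT' => (lintegral_union_le _ _ _).trans_lt (ENNReal.add_lt_top.2 ⟨hT, hT'⟩)) ?_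
      rintro _ ⟨x, hx, rfl⟩
      obtain ⟨L, hL, hL2⟩ := hlc (s j) x (hKs _ hx) c hc0 hc1
      exact ⟨L, mem_nhdsWithin_of_mem_nhds hL, hL2⟩
    exact ((lintegral_mono_set (image_mono (hAK j))).trans_lt h3).ne
  -- positivity
  have hMpos : M ≠ 0 := by
    intro hM0
    have h1 : ∫⁻ w in e 0 '' A 0, h (s 0) w ∂μ = 0 := ENNReal.tsum_eq_zero.1 hM0 0
    have hA0 : A 0 = K (s 0) := disjointed_zero _
    rw [hA0] at h1
    have h2 : ∀ i, ∃ C, ∀ x ∈ K (s 0), ‖τ i x * jac J 𝓘(ℂ, F) (extChartAt J (s 0)) x ^ m‖ ≤ C := by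
      intro i
      refine (hK (s 0)).exists_bound_of_continuousOn fun x hx => ?_
      exact ((hτ i x).chart (hKs _ hx)).continuousAt.continuousWithinAt
    choose C hC using h2
    set R : ℝ≥0∞ := ∑ i, ENNReal.ofReal (C i) ^ 2 with hR
    have hRtop : R ≠ ⊤ := ENNReal.sum_ne_top.2 fun i _ => ENNReal.pow_ne_top ENNReal.ofReal_ne_top
    have hy0 : 0 ≤ c / m := by positivity
    have h3 : ∀ w ∈ e 0 '' K (s 0), R ^ (-(c / m)) ≤ h (s 0) w := by
      rintro _ ⟨x, hx, rfl⟩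
      simp only [h]
      rw [ENNReal.rpow_neg, ENNReal.rpow_neg]
      refine ENNReal.inv_le_inv.2 (ENNReal.rpow_le_rpow (Finset.sum_le_sum fun i _ => ?_) hy0)
      have h4 : coordAt J m (s 0) (τ i) (e 0 x) = τ i x * jac J 𝓘(ℂ, F) (extChartAt J (s 0)) x ^ m := by
        show τ i (e' 0 (e 0 x)) * jac J 𝓘(ℂ, F) (extChartAt J (s 0)) (e' 0 (e 0 x)) ^ m = _
        rw [he' 0 x (hKs _ hx)]
      rw [h4, ← ofReal_norm]
      exact pow_le_pow_left₀ zero_le (ENNReal.ofReal_le_ofReal (hC i x hx)) 2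
    have h4 : 0 < R ^ (-(c / m)) := by
      rw [ENNReal.rpow_neg]
      exact ENNReal.inv_pos.2 (ENNReal.rpow_ne_top_of_nonneg hy0 hRtop)
    have h5 : e 0 '' K (s 0) ∈ 𝓝 (e 0 (s 0)) := by
      exact extChartAt_image_nhds_mem_nhds_of_boundaryless (hKn (s 0))
    have h6 : 0 < μ (e 0 '' K (s 0)) := Measure.measure_pos_of_mem_nhds _ h5
    have h7 : R ^ (-(c / m)) * μ (e 0 '' K (s 0)) ≤ ∫⁻ w in e 0 '' K (s 0), h (s 0) w ∂μ := by
      rw [← setLIntegral_const]
      exact setLIntegral_mono_ae' (measurableSet_image_chart (hK _).measurableSet (hKs _))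
        (Eventually.of_forall h3)
    rw [h1] at h7
    exact absurd h7 (not_le.2 (ENNReal.mul_pos h4.ne' h6.ne'))
  have h1 : 1 < ENNReal.ofReal (δ ^ (2 - 2 * c) * (q ^ (2 * c / m))⁻¹) := by
    rw [ENNReal.one_lt_ofReal]
    exact hc
  have h2 : M < ENNReal.ofReal (δ ^ (2 - 2 * c) * (q ^ (2 * c / m))⁻¹) * M := by
    conv_lhs => rw [← one_mul M]
    exact ENNReal.mul_lt_mul_left hMpos hMtop h1
  exact absurd hMle (not_le.2 h2)

end Vale.Agent.P299.H904
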