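import Vale.Agent.P299.H904.Weights
import Vale.Agent.P299.H904.Volume
import Vale.Agent.P299.H904.Gordan

/-!
# Invariant sections
-/

open scoped Manifold ContDiff Topology ENNReal
open Set Filter MeasureTheory

noncomputable section

set_option linter.unusedSectionVars false

namespace Vale.Agent.P299.H904

variable {F G : Type*} [NormedAddCommGroup F] [NormedSpace ℂ F] [TopologicalSpace G]
  {J : ModelWithCorners ℂ F G} {Z : Type*} [TopologicalSpace Z] [ChartedSpace G Z]

/-- A larger linear system is log canonical if the smaller one is. -/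
theorem IsLC.of_le [MeasurableSpace F] {μ : Measure F} {m : ℕ} {ι κ : Type*} [Fintype ι]
    [Fintype κ] {s : ι → Z → ℂ} {τ : κ → Z → ℂ}
    (hs : IsLC J μ m s) {C : ℝ≥0∞} (hC : C ≠ ⊤) (hC0 : C ≠ 0)
    (h : ∀ (x₀ : Z) (w : F), ∑ i, ‖coordAt J m x₀ (s i) w‖ₑ ^ 2 ≤
      C * ∑ q, ‖coordAt J m x₀ (τ q) w‖ₑ ^ 2) : IsLC J μ m τ := by
  intro x₀ x hx c hc0 hc1
  obtain ⟨K, hK, hKi⟩ := hs x₀ x hx c hc0 hc1
  refine ⟨K, hK, ?_⟩
  have hy0 : 0 ≤ c / m := by positivity
  have hCy : C ^ (c / m) ≠ ⊤ := ENNReal.rpow_ne_top_of_nonneg hy0 hC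
  have hCy0 : C ^ (c / m) ≠ 0 := by
    intro h0
    rcases ENNReal.rpow_eq_zero_iff.1 h0 with h1 | h1
    · exact hC0 h1.1
    · exact hC h1.1
  have h1 : ∀ w : F, (∑ q, ‖coordAt J m x₀ (τ q) w‖ₑ ^ 2) ^ (-(c / m)) ≤
      C ^ (c / m) * (∑ i, ‖coordAt J m x₀ (s i) w‖ₑ ^ 2) ^ (-(c / m)) := by
    intro w
    have h2 := ENNReal.rpow_le_rpow (h x₀ w) hy0
    rw [ENNReal.mul_rpow_of_nonneg _ _ hy0] at h2
    rw [ENNReal.rpow_neg, ENNReal.rpow_neg]
    have h3 := (ENNReal.inv_mul_le_iff hCy0 hCy).2 h2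
    have h4 := ENNReal.inv_le_inv.2 h3
    rwa [ENNReal.mul_inv (Or.inl (ENNReal.inv_ne_zero.2 hCy))
      (Or.inl (ENNReal.inv_ne_top.2 hCy0)), inv_inv] at h4
  refine (lintegral_mono (fun w => h1 w)).trans_lt ?_
  rw [lintegral_const_mul' _ _ hCy]
  exact ENNReal.mul_lt_top hCy.lt_top hKi

theorem coordAt_sum {m : ℕ} {κ : Type*} (S : Finset κ) (τ : κ → Z → ℂ) (x₀ : Z)
    (w : F) : coordAt J m x₀ (fun x => ∑ q ∈ S, τ q x) w = ∑ q ∈ S, coordAt J m x₀ (τ q) w := by
  unfold coordAt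
  rw [Finset.sum_mul]

/-- The Cauchy-Schwarz inequality. -/
theorem enorm_sum_sq_le {κ : Type*} (S : Finset κ) (a : κ → ℂ) :
    ‖∑ q ∈ S, a q‖ₑ ^ 2 ≤ S.card * ∑ q ∈ S, ‖a q‖ₑ ^ 2 := by
  have h1 : ‖∑ q ∈ S, a q‖ ^ 2 ≤ S.card * ∑ q ∈ S, ‖a q‖ ^ 2 := by
    refine (pow_le_pow_left₀ (norm_nonneg _) (norm_sum_le _ _) 2).trans ?_
    exact sq_sum_le_card_mul_sum_sq
  have h2 := ENNReal.ofReal_le_ofReal h1
  rw [ENNReal.ofReal_mul (by positivity), ENNReal.ofReal_natCast,
    ENNReal.ofReal_sum_of_nonneg (fun _ _ => by positivity),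
    ENNReal.ofReal_pow (norm_nonneg _), ofReal_norm] at h2
  refine h2.trans (le_of_eq ?_)
  congr 1
  refine Finset.sum_congr rfl fun q _ => ?_
  rw [ENNReal.ofReal_pow (norm_nonneg _), ofReal_norm]

variable [J.Boundaryless] [IsManifold J ω Z] [FiniteDimensional ℂ F]

/-- **Invariant sections.** Let a torus act on the compact connected complex manifold `Z`. If a
finite dimensional linear system of sections of the `m`-th power of the anticanonical bundle is log
canonical (after division by `m`) then some positive power of the anticanonical bundle has a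
nonzero section which is invariant under the torus. -/
theorem exists_invariant [MeasurableSpace F] [BorelSpace F] (μ : Measure F)
    [μ.IsAddHaarMeasure] [CompactSpace Z] [T2Space Z] [ConnectedSpace Z] {r : ℕ}
    (A : TorusAction J r Z) {m : ℕ} (hm : 0 < m) {N : ℕ} {s : Fin N → Z → ℂ}
    (hs : ∀ i, IsAnti J m (s i)) (hlc : IsLC J μ m s) :
    ∃ (M : ℕ) (σ : Z → ℂ), 0 < M ∧ IsAnti J M σ ∧ (∃ x, σ x ≠ 0) ∧
      ∀ u x, A.pb M u σ x = σ x := by
  classical
  have hdec := fun i => A.exists_decomp (hs i) Finset.univ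
  choose κ hκ τ k hτ hk hsum using hdec
  -- the nonzero weight vectors
  let Q : Type := {q : Σ i, κ i // ∃ x, τ q.1 q.2 x ≠ 0}
  let T : Q → Z → ℂ := fun q => τ q.1.1 q.1.2
  let w : Q → Fin r → ℤ := fun q => k q.1.1 q.1.2
  have hT : ∀ q, IsAnti J m (T q) := fun q => hτ q.1.1 q.1.2
  have hT0 : ∀ q, ∃ x, T q x ≠ 0 := fun q => q.2
  have hTw : ∀ (q : Q) (u : Fin r → ℂ) (x : Z),
      A.pb m u (T q) x = Complex.exp (∑ j, w q j * u j) * T q x := fun q u x =>
    A.pb_of_isWt (fun j => hk q.1.1 q.1.2 j (Finset.mem_univ j)) u x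
  have hTlc : IsLC J μ m T := by
    have h1 : IsLC J μ m (fun q : (Σ i, κ i) => τ q.1 q.2) := by
      refine hlc.of_le (C := 1 + ∑ i, (Fintype.card (κ i) : ℝ≥0∞)) ?_ ?_ fun x₀ y => ?_
      · exact ENNReal.add_ne_top.2 ⟨ENNReal.one_ne_top,
          ENNReal.sum_ne_top.2 fun i _ => ENNReal.natCast_ne_top _⟩
      · simp
      · rw [Fintype.sum_sigma, Finset.mul_sum]
        refine Finset.sum_le_sum fun i _ => ?_
        have h2 : coordAt J m x₀ (s i) y = ∑ q : κ i, coordAt J m x₀ (τ i q) y := by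
          rw [← coordAt_sum]
          congr 1
          exact funext fun x => hsum i x
        rw [h2]
        refine (enorm_sum_sq_le _ _).trans ?_
        gcongr
        rw [Finset.card_univ]
        refine le_trans ?_ le_add_self
        exact Finset.single_le_sum (f := fun i => (Fintype.card (κ i) : ℝ≥0∞))
          (fun _ _ => zero_le) (Finset.mem_univ i)
    refine h1.of_le (C := 1) ENNReal.one_ne_top one_ne_zero fun x₀ y => ?_
    rw [one_mul]
    have h2 : ∑ q : (Σ i, κ i), ‖coordAt J m x₀ (τ q.1 q.2) y‖ₑ ^ 2 =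
        ∑ q ∈ (Finset.univ : Finset (Σ i, κ i)).filter (fun q => ∃ x, τ q.1 q.2 x ≠ 0),
          ‖coordAt J m x₀ (τ q.1 q.2) y‖ₑ ^ 2 := by
      symm
      refine Finset.sum_filter_of_ne fun q _ hq => ?_
      by_contra hcon
      push Not at hcon
      apply hq
      unfold coordAt
      rw [hcon]
      simp
    rw [h2, ← Finset.sum_subtype_eq_sum_filter]
    refine le_of_eq ?_
    refine Finset.sum_congr ?_ fun _ _ => rfl
    ext q
    simp
  rcases gordan_nat (Finset.univ : Finset Q) w with ⟨v, hv⟩ | ⟨a, ha, hav⟩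
  · exfalso
    obtain ⟨ε, hε, hεv⟩ : ∃ ε : ℝ, 0 < ε ∧ ∀ q : Q, ε ≤ ∑ j, (v j : ℝ) * (w q j : ℝ) := by
      have h1 : ∀ q : Q, 0 < ∑ j, (v j : ℝ) * (w q j : ℝ) := by
        intro q
        have := hv q (Finset.mem_univ q)
        exact_mod_cast this
      rcases isEmpty_or_nonempty Q with hQ | hQ
      · exact ⟨1, one_pos, fun q => isEmptyElim q⟩
      · obtain ⟨q₀, hq₀⟩ := Finite.exists_min fun q : Q => ∑ j, (v j : ℝ) * (w q j : ℝ)
        exact ⟨_, h1 q₀, hq₀⟩
    let u : Fin r → ℂ := fun j => ((-(v j : ℝ) : ℝ) : ℂ)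
    have hbij : Function.Bijective (A.act u) := by
      have h1 : ∀ x, A.act (-u) (A.act u x) = x := fun x => by
        rw [← A.add, neg_add_cancel, A.zero]
      have h2 : ∀ x, A.act u (A.act (-u) x) = x := fun x => by
        rw [← A.add, add_neg_cancel, A.zero]
      exact ⟨Function.LeftInverse.injective h1, Function.RightInverse.surjective h2⟩
    refine no_expansion μ hm hT hTlc (g := A.act u) (A.contMDiff u) hbij (A.jac_ne_zero u)
      (q := Real.exp (-ε)) (Real.exp_pos _) (by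
        have := Real.exp_lt_exp.2 (show -ε < 0 by linarith)
        rwa [Real.exp_zero] at this) fun q x => ?_
    have h1 := hTw q u x
    unfold TorusAction.pb at h1
    rw [h1, norm_mul, Complex.norm_exp]
    gcongr
    have h2 : (∑ j, (w q j : ℂ) * u j).re = -∑ j, (v j : ℝ) * (w q j : ℝ) := by
      rw [Complex.re_sum, ← Finset.sum_neg_distrib]
      refine Finset.sum_congr rfl fun j _ => ?_
      simp only [u]
      rw [← Complex.ofReal_intCast, ← Complex.ofReal_mul, Complex.ofReal_re]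
      ring
    rw [h2]
    exact neg_le_neg (hεv q)
  · refine ⟨∑ q : Q, a q * m, fun x => ∏ q : Q, T q x ^ a q, ?_, fun x => ?_, ?_, fun u x => ?_⟩
    · rw [← Finset.sum_mul]
      exact Nat.mul_pos ha hm
    · exact IsAntiAt.prod fun q _ => (hT q x).pow (a q)
    · obtain ⟨x, hx⟩ := exists_prod_ne_zero (S := (Finset.univ : Finset Q)) (m := fun _ => m)
        (fun q _ => hT q) fun q _ => hT0 q
      exact ⟨x, Finset.prod_ne_zero_iff.2 fun q hq => pow_ne_zero _ (hx q hq)⟩
    · have h1 : A.pb (∑ q : Q, a q * m) u (fun x => ∏ q : Q, T q x ^ a q) x =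
          ∏ q : Q, (A.pb m u (T q) x) ^ a q := by
        unfold TorusAction.pb
        rw [← Finset.prod_pow_eq_pow_sum, ← Finset.prod_div_distrib]
        refine Finset.prod_congr rfl fun q _ => ?_
        rw [div_pow, mul_comm (a q) m, pow_mul]
      rw [h1]
      have h2 : ∏ q : Q, (A.pb m u (T q) x) ^ a q =
          (∏ q : Q, Complex.exp (∑ j, w q j * u j) ^ a q) * ∏ q : Q, T q x ^ a q := by
        rw [← Finset.prod_mul_distrib]
        exact Finset.prod_congr rfl fun q _ => by rw [hTw, mul_pow]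
      rw [h2]
      have h3 : ∏ q : Q, Complex.exp (∑ j, w q j * u j) ^ a q = 1 := by
        have h4 : ∏ q : Q, Complex.exp (∑ j, w q j * u j) ^ a q =
            Complex.exp (∑ q : Q, a q * ∑ j, w q j * u j) := by
          rw [Complex.exp_sum]
          exact Finset.prod_congr rfl fun q _ => by rw [← Complex.exp_nat_mul]
        rw [h4]
        have h5 : ∑ q : Q, (a q : ℂ) * ∑ j, (w q j : ℂ) * u j = 0 := by
          simp_rw [Finset.mul_sum]
          rw [Finset.sum_comm]
          refine Finset.sum_eq_zero fun j _ => ?_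
          have h6 := hav j
          have h7 : ∑ q : Q, (a q : ℂ) * (w q j : ℂ) = 0 := by exact_mod_cast h6
          calc ∑ q : Q, (a q : ℂ) * ((w q j : ℂ) * u j)
              = (∑ q : Q, (a q : ℂ) * (w q j : ℂ)) * u j := by
                rw [Finset.sum_mul]
                exact Finset.sum_congr rfl fun q _ => by ring
            _ = 0 := by rw [h7, zero_mul]
        rw [h5, Complex.exp_zero]
      rw [h3, one_mul]

end Vale.Agent.P299.H904
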