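import Vale.Agent.P299.H904.Product
import Vale.Agent.P299.H904.Invariant

/-!
# Quotients and bundles
-/

open scoped Manifold ContDiff Topology ENNReal
open Set Filter MeasureTheory

noncomputable section

set_option linter.unusedSectionVars false

namespace Vale.Agent.P299.H904

section bpf

variable {F G : Type*} [NormedAddCommGroup F] [NormedSpace ℂ F] [TopologicalSpace G]
  {J : ModelWithCorners ℂ F G} {Z : Type*} [TopologicalSpace Z] [ChartedSpace G Z]
  [J.Boundaryless] [IsManifold J ω Z] [FiniteDimensional ℂ F] [MeasurableSpace F] [BorelSpace F]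

/-- A linear system without base points is log canonical. -/
theorem isLC_of_ne_zero (μ : Measure F) [μ.IsAddHaarMeasure] {m : ℕ} {ι : Type*} [Fintype ι]
    {s : ι → Z → ℂ} (hs : ∀ i, IsAnti J m (s i)) (h : ∀ z, ∃ i, s i z ≠ 0) :
    IsLC J μ m s := by
  intro x₀ x hx c hc0 hc1
  obtain ⟨i, hi⟩ := h x
  have h1 := ((hs i).analyticAt_coord x₀ (mem_target (I := J) hx)).continuousAt
  have h2 : coordAt J m x₀ (s i) (extChartAt J x₀ x) ≠ 0 := by
    unfold coordAt
    rw [left_inv' hx]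
    exact mul_ne_zero hi (pow_ne_zero m (jac_chart_ne_zero hx))
  set a : ℝ := ‖coordAt J m x₀ (s i) (extChartAt J x₀ x)‖ with ha
  have ha0 : 0 < a := norm_pos_iff.2 h2
  have h3 : ∀ᶠ w in 𝓝 (extChartAt J x₀ x), a / 2 < ‖coordAt J m x₀ (s i) w‖ :=
    h1.norm.eventually (lt_mem_nhds (half_lt_self ha0))
  obtain ⟨ρ, hρ, hball⟩ := Metric.eventually_nhds_iff_ball.1 h3
  refine ⟨Metric.ball (extChartAt J x₀ x) ρ, Metric.ball_mem_nhds _ hρ, ?_⟩
  have hy0 : 0 ≤ c / m := by positivity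
  have h4 : ∀ w ∈ Metric.ball (extChartAt J x₀ x) ρ,
      (∑ i, ‖coordAt J m x₀ (s i) w‖ₑ ^ 2) ^ (-(c / m)) ≤
        (ENNReal.ofReal (a / 2) ^ 2) ^ (-(c / m)) := by
    intro w hw
    rw [ENNReal.rpow_neg, ENNReal.rpow_neg]
    refine ENNReal.inv_le_inv.2 (ENNReal.rpow_le_rpow ?_ hy0)
    refine le_trans ?_ (Finset.single_le_sum (f := fun i => ‖coordAt J m x₀ (s i) w‖ₑ ^ 2)
      (fun _ _ => zero_le) (Finset.mem_univ i))
    gcongr
    rw [← ofReal_norm]
    exact ENNReal.ofReal_le_ofReal (hball w hw).le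
  refine (setLIntegral_mono' measurableSet_ball h4).trans_lt ?_
  rw [setLIntegral_const]
  refine ENNReal.mul_lt_top ?_ measure_ball_lt_top
  refine lt_top_iff_ne_top.2 (ENNReal.rpow_ne_top_of_ne_zero ?_ ?_)
  · exact pow_ne_zero 2 (ENNReal.ofReal_pos.2 (half_pos ha0)).ne'
  · exact ENNReal.pow_ne_top ENNReal.ofReal_ne_top

end bpf

section quotient

variable {E H H' : Type*} [NormedAddCommGroup E] [NormedSpace ℂ E]
  [TopologicalSpace H] [TopologicalSpace H']
  {I : ModelWithCorners ℂ E H} {I' : ModelWithCorners ℂ E H'}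
  {M M' : Type*} [TopologicalSpace M] [ChartedSpace H M]
  [TopologicalSpace M'] [ChartedSpace H' M']
  [I.Boundaryless] [IsManifold I ω M] [I'.Boundaryless] [IsManifold I' ω M']
  [FiniteDimensional ℂ E] {Γ : Type*} [Group Γ] [MulAction Γ M]

theorem jac_mul_smul (hΓ : ∀ γ : Γ, ContMDiff I I ω (fun x : M => γ • x)) (g h : Γ) (x : M) :
    jac I I (fun y : M => (g * h) • y) x =
      jac I I (fun y : M => g • y) (h • x) * jac I I (fun y : M => h • y) x := by
  rw [← jac_comp (f := fun y : M => h • y) (g := fun y : M => g • y)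
    ((hΓ g _).mdifferentiableAt (by simp)) ((hΓ h _).mdifferentiableAt (by simp))]
  exact jac_congr (Eventually.of_forall fun y => mul_smul g h y)

theorem jac_smul_ne_zero (hΓ : ∀ γ : Γ, ContMDiff I I ω (fun x : M => γ • x)) (g : Γ) (x : M) :
    jac I I (fun y : M => g • y) x ≠ 0 := by
  have h1 := jac_mul_smul hΓ g⁻¹ g x
  have h2 : jac I I (fun y : M => (g⁻¹ * g) • y) x = 1 := by
    rw [← jac_id (I := I) x]
    exact jac_congr (Eventually.of_forall fun y => by simp)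
  rw [h2] at h1
  exact right_ne_zero_of_mul (h1 ▸ one_ne_zero)

/-- **Quotients.** `M'` is the quotient of the connected manifold `M` by a group `Γ` of
biholomorphisms, and some subgroup of finite index preserves a nonzero section: then `M'` has a
nonzero section. -/
theorem exists_quotient [PreconnectedSpace M]
    (hΓ : ∀ γ : Γ, ContMDiff I I ω (fun x : M => γ • x)) (Γ₀ : Subgroup Γ) [Γ₀.FiniteIndex]
    {p : M → M'} (hp : IsLocalDiffeomorph I I' ω p) (hsurj : Function.Surjective p)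
    (hfib : ∀ a b, p a = p b ↔ ∃ γ : Γ, γ • a = b) {a : ℕ} (ha : 0 < a) {σ : M → ℂ}
    (hσ : IsAnti I a σ) (h0 : ∃ x, σ x ≠ 0)
    (hinv : ∀ γ ∈ Γ₀, ∀ x, σ (γ • x) = σ x * jac I I (fun y : M => γ • y) x ^ a) :
    ∃ (N : ℕ) (τ : M' → ℂ), 0 < N ∧ IsAnti I' N τ ∧ ∃ y, τ y ≠ 0 := by
  classical
  let F : Γ → M → ℂ := fun g x => σ (g⁻¹ • x) / jac I I (fun y : M => g⁻¹ • y) x ^ a
  have hF1 : ∀ g γ : Γ, γ ∈ Γ₀ → ∀ x, F (g * γ) x = F g x := by
    intro g γ hγ x
    simp only [F, mul_inv_rev]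
    rw [jac_mul_smul hΓ, mul_smul, hinv _ (Γ₀.inv_mem hγ), mul_pow]
    have h1 := pow_ne_zero a (jac_smul_ne_zero hΓ γ⁻¹ (g⁻¹ • x))
    have h2 := pow_ne_zero a (jac_smul_ne_zero hΓ g⁻¹ x)
    field_simp
  have hF2 : ∀ g h : Γ, ∀ x, F g (h • x) = F (h⁻¹ * g) x * jac I I (fun y : M => h • y) x ^ a := by
    intro g h x
    simp only [F, mul_inv_rev, inv_inv]
    rw [jac_mul_smul hΓ, mul_smul, mul_pow]
    have h1 := pow_ne_zero a (jac_smul_ne_zero hΓ g⁻¹ (h • x))
    have h2 := pow_ne_zero a (jac_smul_ne_zero hΓ h x)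
    field_simp
  have hF3 : ∀ g, IsAnti I a (F g) := fun g x =>
    IsAntiAt.pull (hΓ g⁻¹ x) (jac_smul_ne_zero hΓ g⁻¹ x) (hσ _)
  have hF4 : ∀ g, ∃ x, F g x ≠ 0 := by
    intro g
    obtain ⟨x, hx⟩ := h0
    refine ⟨g • x, ?_⟩
    simp only [F, inv_smul_smul]
    exact div_ne_zero hx (pow_ne_zero a (jac_smul_ne_zero hΓ g⁻¹ _))
  have hF5 : ∀ g h : Γ, (g : Γ ⧸ Γ₀) = (h : Γ ⧸ Γ₀) → F g = F h := by
    intro g h hgh
    rw [QuotientGroup.eq] at hgh
    funext x
    have := hF1 g _ hgh x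
    rw [mul_inv_cancel_left] at this
    exact this.symm
  have : Finite (Γ ⧸ Γ₀) := inferInstance
  let fi : Fintype (Γ ⧸ Γ₀) := Fintype.ofFinite _
  let P : M → ℂ := fun x => ∏ q : Γ ⧸ Γ₀, F q.out x
  obtain ⟨x₁, hx₁⟩ := h0
  have : Nonempty M := ⟨x₁⟩
  have hP1 : IsAnti I (∑ _q : Γ ⧸ Γ₀, a) P := fun x => IsAntiAt.prod fun q _ => hF3 _ x
  have hP2 : ∃ x, P x ≠ 0 := by
    obtain ⟨x, hx⟩ := exists_prod_ne_zero (S := (Finset.univ : Finset (Γ ⧸ Γ₀)))
      (m := fun _ => a) (σ := fun q => F q.out) (fun q _ => hF3 _) fun q _ => hF4 _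
    exact ⟨x, Finset.prod_ne_zero_iff.2 hx⟩
  have hP3 : ∀ (h : Γ) (x : M), P (h • x) =
      P x * jac I I (fun y : M => h • y) x ^ (∑ _q : Γ ⧸ Γ₀, a) := by
    intro h x
    rw [← Finset.prod_pow_eq_pow_sum]
    have h1 : P (h • x) = (∏ q : Γ ⧸ Γ₀, F (h⁻¹ * q.out) x) *
        ∏ _q : Γ ⧸ Γ₀, jac I I (fun y : M => h • y) x ^ a := by
      rw [← Finset.prod_mul_distrib]
      exact Finset.prod_congr rfl fun q _ => hF2 _ _ _
    rw [h1]
    congr 1
    refine Fintype.prod_equiv (MulAction.toPerm h⁻¹) _ _ fun q => ?_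
    have h2 : ((h⁻¹ * q.out : Γ) : Γ ⧸ Γ₀) =
        (((MulAction.toPerm h⁻¹ : Equiv.Perm (Γ ⧸ Γ₀)) q).out : Γ ⧸ Γ₀) := by
      rw [QuotientGroup.out_eq', MulAction.toPerm_apply]
      conv_rhs => rw [← QuotientGroup.out_eq' q]
      rfl
    rw [hF5 _ _ h2]
  have hjac : ∀ (h : Γ) (x : M), jac I I' p x =
      jac I I' p (h • x) * jac I I (fun y : M => h • y) x := by
    intro h x
    rw [← jac_comp (f := fun y : M => h • y) (g := p)
      ((hp _).mdifferentiableAt (by simp)) ((hΓ h _).mdifferentiableAt (by simp))]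
    exact jac_congr (Eventually.of_forall fun y => (hfib _ _).2 ⟨h, rfl⟩)
  obtain ⟨τ, hτ1, hτ2⟩ := exists_descend hp hsurj hP1 fun x y hxy => by
    obtain ⟨h, rfl⟩ := (hfib _ _).1 hxy
    rw [hP3 h x, hjac h x, mul_pow]
    ring
  refine ⟨_, τ, ?_, hτ1, ?_⟩
  · refine Finset.sum_pos (fun _ _ => ha) ?_
    exact ⟨((1 : Γ) : Γ ⧸ Γ₀), Finset.mem_univ _⟩
  · obtain ⟨x, hx⟩ := hP2
    refine ⟨p x, ?_⟩
    rw [hτ2]
    exact mul_ne_zero hx (pow_ne_zero _ (jac_ne_zero_of_isLocalDiffeomorphAt (hp x)))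

/-- **Glueing.** Local sections, given in local parametrisations `p i` of `M'` which are
defined on open subsets `W i` of `M`, can be glued. -/
theorem exists_glue {ι : Type*} {p : ι → M → M'} {W : ι → Set M} (hW : ∀ i, IsOpen (W i))
    (hp : ∀ i, ∀ a ∈ W i, IsLocalDiffeomorphAt I I' ω (p i) a)
    (hcov : ∀ y, ∃ i, ∃ a ∈ W i, p i a = y) {m : ℕ} {σ : ι → M → ℂ}
    (hσ : ∀ i, IsAnti I m (σ i))
    (hc : ∀ i j, ∀ a ∈ W i, ∀ b ∈ W j, p i a = p j b →
      σ i a * jac I I' (p i) a ^ m = σ j b * jac I I' (p j) b ^ m) :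
    ∃ τ : M' → ℂ, IsAnti I' m τ ∧
      ∀ i, ∀ a ∈ W i, τ (p i a) = σ i a * jac I I' (p i) a ^ m := by
  choose i₀ s hsW hs using hcov
  refine ⟨fun y => σ (i₀ y) (s y) * jac I I' (p (i₀ y)) (s y) ^ m, fun y => ?_,
    fun i a ha => ?_⟩
  · obtain ⟨i, a, ha, rfl⟩ : ∃ i, ∃ a ∈ W i, p i a = y := ⟨i₀ y, s y, hsW y, hs y⟩
    have hpa := hp i a ha
    have hla : hpa.localInverse (p i a) = a := hpa.localInverse_left_inv
      hpa.localInverse_mem_target
    have hc2 := hpa.localInverse_contMDiffAt.continuousAt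
    refine (IsAntiAt.push hpa (hσ i a) (g := hpa.localInverse)
      (hpa.localInverse_left_inv hpa.localInverse_mem_target)
      hpa.localInverse_contMDiffAt.continuousAt hpa.localInverse_eventuallyEq_right).congr ?_
    have h1 : ∀ᶠ y in 𝓝 (p i a), hpa.localInverse y ∈ W i :=
      hc2.eventually (by rw [hla]; exact (hW i).mem_nhds ha)
    filter_upwards [hpa.localInverse_eventuallyEq_right, h1] with y hy hy1
    exact hc _ _ _ (hsW y) _ hy1 (by rw [hs]; exact hy.symm)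
  · exact hc _ _ _ (hsW _) _ ha (hs _)

end quotient

section bundle

variable {E F H G HX : Type*} [NormedAddCommGroup E] [NormedSpace ℂ E] [FiniteDimensional ℂ E]
  [NormedAddCommGroup F] [NormedSpace ℂ F] [FiniteDimensional ℂ F]
  [TopologicalSpace H] [TopologicalSpace G] [TopologicalSpace HX]
  {I : ModelWithCorners ℂ E H} {J : ModelWithCorners ℂ F G}
  {K : ModelWithCorners ℂ (E × F) HX} {B X Z : Type*} [TopologicalSpace B] [ChartedSpace H B]
  [TopologicalSpace X] [ChartedSpace HX X] [TopologicalSpace Z] [ChartedSpace G Z] {r : ℕ}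
  [I.Boundaryless] [IsManifold I ω B] [K.Boundaryless] [IsManifold K ω X]
  [J.Boundaryless] [IsManifold J ω Z]

/-- The total space of a torus bundle has a section if the base has one and the fibre has an
invariant one. -/
theorem IsTorusBundle.exists_section {A : TorusAction J r Z} {π : X → B}
    {ι : Type*} {U : ι → Set B} {φ : ι → B × Z → X} (h : IsTorusBundle I K A π U φ) {a : ℕ}
    {t : B → ℂ} (ht : IsAnti I a t) (ht0 : ∃ b, t b ≠ 0) {s : Z → ℂ}
    (hs : IsAnti J a s) (hs0 : ∃ z, s z ≠ 0)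
    (hinv : ∀ u z, s (A.act u z) =
      s z * jac J J (A.act u) z ^ a) :
    ∃ σ : X → ℂ, IsAnti K a σ ∧ ∃ x, σ x ≠ 0 := by
  obtain ⟨τ, hτ1, hτ2⟩ := exists_glue (I := I.prod J) (I' := K)
    (p := φ) (W := fun i => {x : B × Z | x.1 ∈ U i})
    (fun i => (h.isOpen i).preimage continuous_fst) (fun i x hx => h.holo i x hx)
    (fun y => by
      obtain ⟨i, hi⟩ := h.cover (π y)
      obtain ⟨x, hx, hxy⟩ := h.surj i y hi
      exact ⟨i, x, hx, hxy⟩)
    (σ := fun _ x => t x.1 * s x.2) (fun i => ht.boxProd hs)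
    (fun i j x hx y hy hxy => by
      have h1 : x.1 = y.1 := by rw [← h.proj i x hx, ← h.proj j y hy, hxy]
      obtain ⟨u, hu, hev⟩ := h.trans i j x.1 hx (by rw [h1]; exact hy)
      have h2 : y = (x.1, A.act (u x.1) x.2) := by
        refine h.inj j _ _ hy (by
          show x.1 ∈ U j
          rw [h1]
          exact hy) ?_
        rw [← hxy, ← hev.self_of_nhds]
      have h3 : ContMDiffAt (I.prod J) J ω
          (fun c : B × Z => A.act (u c.1) c.2) x := by
        have h4 : ContMDiffAt (I.prod J)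
            (𝓘(ℂ, Fin r → ℂ).prod J) ω
            (fun c : B × Z => (u c.1, c.2)) x :=
          (hu.comp x contMDiffAt_fst).prodMk contMDiffAt_snd
        exact ContMDiffAt.comp x (g := fun q : (Fin r → ℂ) × Z => A.act q.1 q.2)
          A.holo.contMDiffAt h4
      have h5 : jac (I.prod J) K (φ i) x =
          jac (I.prod J) K (φ j) y *
            jac J J (A.act (u x.1)) x.2 := by
        have h6 : φ i =ᶠ[𝓝 x] φ j ∘ fun c : B × Z => (c.1, A.act (u c.1) c.2) := by
          have h7 : ∀ᶠ c : B × Z in 𝓝 x, ∀ z, φ i (c.1, z) = φ j (c.1, A.act (u c.1) z) :=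
            continuous_fst.continuousAt.eventually hev
          filter_upwards [h7] with c hc
          exact hc c.2
        rw [jac_congr h6, jac_comp (I' := I.prod J)]
        · have h8 := jac_skew (I := I) (J := J) (I' := I)
            (J' := J) (τ := (id : B → B))
            (φ := fun c : B × Z => A.act (u c.1) c.2) (x := x)
            mdifferentiableAt_id (h3.mdifferentiableAt (by simp))
          have h9 : jac I I (id : B → B) x.1 = 1 := jac_id x.1
          rw [h9, one_mul] at h8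
          rw [h2]
          congr 1
        · have h9 := (h.holo j y hy).mdifferentiableAt (by simp)
          rw [h2] at h9
          exact h9
        · exact mdifferentiableAt_fst.prodMk (h3.mdifferentiableAt (by simp))
      have h10 : s y.2 = s x.2 *
          jac J J (A.act (u x.1)) x.2 ^ a := by
        rw [h2]
        exact hinv _ _
      rw [h5, h10, ← h1, mul_pow]
      ring)
  obtain ⟨b, hb⟩ := ht0
  obtain ⟨z, hz⟩ := hs0
  obtain ⟨i, hi⟩ := h.cover b
  refine ⟨τ, hτ1, φ i (b, z), ?_⟩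
  rw [hτ2 i (b, z) hi]
  exact mul_ne_zero (mul_ne_zero hb hz)
    (pow_ne_zero a (jac_ne_zero_of_isLocalDiffeomorphAt (h.holo i (b, z) hi)))

end bundle

end Vale.Agent.P299.H904
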