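import Mathlib

/-!
# Entire periodic functions of exponential growth are trigonometric polynomials
-/

open Complex Filter Topology Function Function.Periodic

noncomputable section

namespace Vale.Agent.P299.H904

/-- An entire function of polynomial growth is a polynomial. -/
theorem entire_poly {H : ℂ → ℂ} (hH : Differentiable ℂ H) {C : ℝ} {N : ℕ}
    (hb : ∀ t, 1 ≤ ‖t‖ → ‖H t‖ ≤ C * ‖t‖ ^ N) :
    ∃ b : ℕ → ℂ, ∀ t, H t = ∑ n ∈ Finset.range (N + 1), b n * t ^ n := by
  have h0 : ∀ n, N < n → iteratedDeriv n H 0 = 0 := by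
    intro n hn
    have h1 : ∀ R : ℝ, 1 ≤ R → ‖iteratedDeriv n H 0‖ ≤ n.factorial * (C * R ^ N) / R ^ n := by
      intro R hR
      refine norm_iteratedDeriv_le_of_forall_mem_sphere_norm_le n (by linarith)
        hH.diffContOnCl fun z hz => ?_
      have hz' : ‖z‖ = R := by simpa using hz
      rw [← hz']
      exact hb z (by rw [hz']; exact hR)
    have hlim : Tendsto (fun R : ℝ => n.factorial * (C * R ^ N) / R ^ n) atTop (𝓝 0) := by
      have h2 : ∀ᶠ R : ℝ in atTop, n.factorial * (C * R ^ N) / R ^ n =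
          (n.factorial * C) * (R ^ (n - N))⁻¹ := by
        filter_upwards [eventually_gt_atTop 0] with R hR
        have h3 : R ^ n = R ^ (n - N) * R ^ N := by
          rw [← pow_add, Nat.sub_add_cancel hn.le]
        rw [h3]
        have h4 : R ^ N ≠ 0 := pow_ne_zero _ hR.ne'
        have h5 : R ^ (n - N) ≠ 0 := pow_ne_zero _ hR.ne'
        field_simp
      refine Tendsto.congr' (EventuallyEq.symm h2) ?_
      have h6 : Tendsto (fun R : ℝ => (R ^ (n - N))⁻¹) atTop (𝓝 0) :=
        tendsto_inv_atTop_zero.comp (tendsto_pow_atTop (by omega))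
      simpa using h6.const_mul (n.factorial * C)
    have h7 : ‖iteratedDeriv n H 0‖ ≤ 0 :=
      ge_of_tendsto hlim (by filter_upwards [eventually_ge_atTop 1] with R hR using h1 R hR)
    exact norm_le_zero_iff.1 h7
  refine ⟨fun n => (n.factorial : ℂ)⁻¹ * iteratedDeriv n H 0, fun t => ?_⟩
  rw [← taylorSeries_eq_of_entire' (c := 0) (z := t) hH]
  rw [tsum_eq_sum (s := Finset.range (N + 1))]
  · simp
  · intro n hn
    rw [h0 n (by simpa using hn)]
    simp

/-- An entire function of period `2πi` and of exponential growth is a Laurent polynomial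
in `exp`. -/
theorem entire_periodic {F : ℂ → ℂ} (hF : Differentiable ℂ F)
    (hper : ∀ c, F (c + 2 * Real.pi * I) = F c) {C K : ℝ}
    (hb : ∀ c, ‖F c‖ ≤ C * Real.exp (K * |c.re|)) {N : ℕ} (hK : K < N) (hK0 : 0 ≤ K) :
    ∃ b : ℕ → ℂ, ∀ c, F c = ∑ n ∈ Finset.range (2 * N + 1), b n * exp (((n : ℂ) - N) * c) := by
  have hpi : (2 * Real.pi * I : ℂ) ≠ 0 := by simp [Real.pi_ne_zero]
  have hC : 0 ≤ C := by
    have := (norm_nonneg _).trans (hb 0)
    simpa using this
  let f : ℂ → ℂ := fun z => F (2 * Real.pi * I * z)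
  have hf : Periodic f ((1 : ℝ) : ℂ) := by
    intro z
    simp only [f, ofReal_one]
    rw [mul_add, mul_one, hper]
  have hfd : Differentiable ℂ f := hF.comp (differentiable_id.const_mul _)
  let G : ℂ → ℂ := cuspFunction 1 f
  have hGF : ∀ c, G (exp c) = F c := by
    intro c
    have h1 := eq_cuspFunction (h := 1) one_ne_zero hf (c / (2 * Real.pi * I))
    have h2 : qParam 1 (c / (2 * Real.pi * I)) = exp c := by
      rw [qParam]
      congr 1
      simp only [ofReal_one, div_one]
      field_simp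
    rw [h2] at h1
    simp only [G]
    rw [h1]
    simp only [f]
    rw [mul_div_cancel₀ _ hpi]
  have hGd : ∀ t, t ≠ 0 → DifferentiableAt ℂ G t := by
    intro t ht
    obtain ⟨c, rfl⟩ : ∃ c, exp c = t := ⟨log t, exp_log ht⟩
    have h2 : qParam 1 (c / (2 * Real.pi * I)) = exp c := by
      rw [qParam]
      congr 1
      simp only [ofReal_one, div_one]
      field_simp
    rw [← h2]
    exact differentiableAt_cuspFunction one_ne_zero hf (hfd _)
  have hGb : ∀ t, t ≠ 0 → ‖G t‖ ≤ C * Real.exp (K * |Real.log ‖t‖|) := by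
    intro t ht
    have h1 := hb (log t)
    rw [← hGF, exp_log ht, log_re] at h1
    exact h1
  have hN0 : (0 : ℝ) < N := lt_of_le_of_lt hK0 hK
  have hN1 : N ≠ 0 := by rintro rfl; simp at hN0
  let H : ℂ → ℂ := fun t => t ^ N * G t
  have hH0 : H 0 = 0 := by simp [H, hN1]
  have hHd' : ∀ t, t ≠ 0 → DifferentiableAt ℂ H t := fun t ht =>
    (differentiableAt_pow N).mul (hGd t ht)
  have hHc : ContinuousAt H 0 := by
    rw [ContinuousAt, hH0]
    have h1 : ∀ᶠ t : ℂ in 𝓝 0, ‖H t‖ ≤ C * ‖t‖ ^ ((N : ℝ) - K) := by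
      filter_upwards [Metric.ball_mem_nhds (0 : ℂ) one_pos] with t ht
      rcases eq_or_ne t 0 with rfl | ht0
      · rw [hH0]
        simp only [norm_zero]
        positivity
      · have ht1 : 0 < ‖t‖ := norm_pos_iff.2 ht0
        have ht2 : ‖t‖ < 1 := by simpa using ht
        have hlog : Real.log ‖t‖ < 0 := Real.log_neg ht1 ht2
        have h2 := hGb t ht0
        rw [abs_of_neg hlog] at h2
        simp only [H, norm_mul, norm_pow]
        have h3 : ‖t‖ ^ ((N : ℝ) - K) = ‖t‖ ^ N * Real.exp (K * -Real.log ‖t‖) := by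
          rw [Real.rpow_sub ht1, Real.rpow_natCast, Real.rpow_def_of_pos ht1 K, div_eq_mul_inv,
            ← Real.exp_neg]
          congr 2
          ring
        rw [h3]
        calc ‖t‖ ^ N * ‖G t‖ ≤ ‖t‖ ^ N * (C * Real.exp (K * -Real.log ‖t‖)) := by gcongr
          _ = _ := by ring
    refine squeeze_zero_norm' h1 ?_
    have h4 : Tendsto (fun t : ℂ => ‖t‖ ^ ((N : ℝ) - K)) (𝓝 0) (𝓝 0) := by
      have h5 : Tendsto (fun t : ℂ => ‖t‖) (𝓝 0) (𝓝 0) := by
        simpa using (continuous_norm (E := ℂ)).tendsto 0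
      have h6 := (Real.continuousAt_rpow_const (0 : ℝ) ((N : ℝ) - K)
        (Or.inr (by linarith))).tendsto
      rw [Real.zero_rpow (by linarith)] at h6
      exact h6.comp h5
    simpa using h4.const_mul C
  have hHd : Differentiable ℂ H := by
    intro t
    rcases eq_or_ne t 0 with rfl | ht
    · refine (analyticAt_of_differentiable_on_punctured_nhds_of_continuousAt ?_
        hHc).differentiableAt
      filter_upwards [self_mem_nhdsWithin] with t ht
      exact hHd' t ht
    · exact hHd' t ht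
  have hHb : ∀ t, 1 ≤ ‖t‖ → ‖H t‖ ≤ C * ‖t‖ ^ (2 * N) := by
    intro t ht
    have ht1 : 0 < ‖t‖ := by linarith
    have ht0 : t ≠ 0 := norm_pos_iff.1 ht1
    have h2 := hGb t ht0
    have hlog : 0 ≤ Real.log ‖t‖ := Real.log_nonneg ht
    rw [abs_of_nonneg hlog] at h2
    simp only [H, norm_mul, norm_pow]
    have h3 : Real.exp (K * Real.log ‖t‖) ≤ ‖t‖ ^ N := by
      rw [← Real.rpow_natCast, Real.rpow_def_of_pos ht1]
      refine Real.exp_le_exp.2 ?_
      rw [mul_comm]
      exact mul_le_mul_of_nonneg_left hK.le hlog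
    calc ‖t‖ ^ N * ‖G t‖ ≤ ‖t‖ ^ N * (C * ‖t‖ ^ N) := by
          gcongr
          exact h2.trans (by gcongr)
      _ = C * ‖t‖ ^ (2 * N) := by ring
  obtain ⟨b, hb'⟩ := entire_poly hHd hHb
  refine ⟨b, fun c => ?_⟩
  have h1 := hb' (exp c)
  simp only [H, hGF] at h1
  have h2 : exp c ^ N ≠ 0 := pow_ne_zero _ (exp_ne_zero c)
  rw [← mul_right_inj' h2, h1, Finset.mul_sum]
  refine Finset.sum_congr rfl fun n _ => ?_
  rw [← exp_nat_mul, ← exp_nat_mul, mul_left_comm, ← exp_add]
  congr 2
  ring

/-- The coefficients of a Laurent polynomial in `exp` are linear combinations of its values. -/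
theorem laurent_coeff {F : ℂ → ℂ} {N : ℕ} {b : ℕ → ℂ}
    (hF : ∀ c, F c = ∑ n ∈ Finset.range (2 * N + 1), b n * exp (((n : ℂ) - N) * c))
    {n : ℕ} (hn : n ∈ Finset.range (2 * N + 1)) (c : ℂ) :
    ((2 * N + 1 : ℕ) : ℂ)⁻¹ * ∑ l ∈ Finset.range (2 * N + 1),
      exp (-(((n : ℂ) - N) * (2 * Real.pi * I * l / (2 * N + 1 : ℕ)))) *
        F (c + 2 * Real.pi * I * l / (2 * N + 1 : ℕ)) = b n * exp (((n : ℂ) - N) * c) := by
  set P : ℕ := 2 * N + 1 with hP
  have hP0 : (P : ℂ) ≠ 0 := by
    have : P ≠ 0 := by omega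
    exact_mod_cast this
  have hζ : IsPrimitiveRoot (exp (2 * Real.pi * I / P)) P :=
    Complex.isPrimitiveRoot_exp P (by omega)
  have h1 : ∀ l ∈ Finset.range P,
      exp (-(((n : ℂ) - N) * (2 * Real.pi * I * l / P))) * F (c + 2 * Real.pi * I * l / P) =
      ∑ k ∈ Finset.range P, b k * exp (((k : ℂ) - N) * c) *
        exp (((k : ℂ) - n) * (2 * Real.pi * I / P) * l) := by
    intro l _
    rw [hF, Finset.mul_sum]
    refine Finset.sum_congr rfl fun k _ => ?_
    rw [mul_left_comm, ← exp_add, mul_assoc (b k), ← exp_add]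
    congr 2
    ring
  rw [Finset.sum_congr rfl h1, Finset.sum_comm]
  have h2 : ∀ k ∈ Finset.range P, ∑ l ∈ Finset.range P, b k * exp (((k : ℂ) - N) * c) *
        exp (((k : ℂ) - n) * (2 * Real.pi * I / P) * l) =
      if k = n then (P : ℂ) * (b n * exp (((n : ℂ) - N) * c)) else 0 := by
    intro k hk
    rw [← Finset.mul_sum]
    split_ifs with hkn
    · subst hkn
      simp [mul_comm]
    · have hkP := Finset.mem_range.1 hk
      have hnP := Finset.mem_range.1 hn
      have h3 : ∑ l ∈ Finset.range P, exp (((k : ℂ) - n) * (2 * Real.pi * I / P) * l) = 0 := by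
        have h4 : ∀ l ∈ Finset.range P, exp (((k : ℂ) - n) * (2 * Real.pi * I / P) * l) =
            (exp (((k : ℂ) - n) * (2 * Real.pi * I / P))) ^ l := by
          intro l _
          rw [← exp_nat_mul]
          congr 1
          ring
        rw [Finset.sum_congr rfl h4]
        have h5 : exp (((k : ℂ) - n) * (2 * Real.pi * I / P)) ≠ 1 := by
          intro h6
          rw [exp_eq_one_iff] at h6
          obtain ⟨z, hz⟩ := h6
          have h7 : ((k : ℂ) - n) = z * P := by
            field_simp at hz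
            rw [hz]; ring
          have h8 : ((k : ℤ) - n) = z * P := by exact_mod_cast h7
          have h9 : (P : ℤ) ∣ (k : ℤ) - n := ⟨z, by rw [h8]; ring⟩
          have h10 := Int.eq_zero_of_abs_lt_dvd h9 (by
            rw [abs_lt]; constructor <;> omega)
          omega
        have h11 := geom_sum_eq h5 P
        rw [h11]
        have h12 : exp (((k : ℂ) - n) * (2 * Real.pi * I / P)) ^ P = 1 := by
          rw [← exp_nat_mul, exp_eq_one_iff]
          refine ⟨(k : ℤ) - n, ?_⟩
          push_cast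
          field_simp
        rw [h12]
        simp
      rw [h3, mul_zero]
  rw [Finset.sum_congr rfl h2, Finset.sum_ite_eq' , if_pos hn]
  field_simp

end Vale.Agent.P299.H904
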