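import Vale.Agent.P299.H904.Torus
import Vale.Agent.P299.H904.Laurent

/-!
# Sections on a compact manifold are finite sums of weight vectors of a torus action
-/

open scoped Manifold ContDiff Topology
open Set Filter

noncomputable section

set_option linter.unusedSectionVars false

namespace Vale.Agent.P299.H904

variable {E H : Type*} [NormedAddCommGroup E] [NormedSpace ℂ E]
  [TopologicalSpace H] {I : ModelWithCorners ℂ E H}
  {M : Type*} [TopologicalSpace M] [ChartedSpace H M] {r : ℕ}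
  [I.Boundaryless] [IsManifold I ω M] [FiniteDimensional ℂ E]

/-- A compact manifold is covered by finitely many compact subsets of chart domains. -/
theorem exists_compact_cover (I : ModelWithCorners ℂ E H) [I.Boundaryless] [CompactSpace M] :
    ∃ (S : Finset M) (K : M → Set M) (c : M → M), (∀ s, IsCompact (K s)) ∧
      (∀ s, K s ⊆ (chartAt H s).source) ∧ (∀ x, c x ∈ S) ∧ ∀ x, x ∈ K (c x) := by
  have : LocallyCompactSpace M := Manifold.locallyCompact_of_finiteDimensional I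
  have h : ∀ s : M, ∃ K ∈ 𝓝 s, K ⊆ (chartAt H s).source ∧ IsCompact K := fun s =>
    local_compact_nhds (source_mem (mem_chart_source H s))
  choose K hK1 hK2 hK3 using h
  obtain ⟨S, -, hS⟩ := isCompact_univ.elim_nhds_subcover K (fun x _ => hK1 x)
  have h2 : ∀ x : M, ∃ s ∈ S, x ∈ K s := by
    intro x
    have := hS (mem_univ x)
    simpa using this
  choose c hc1 hc2 using h2
  exact ⟨S, K, c, hK3, hK2, hc1, hc2⟩

namespace TorusAction

variable (A : TorusAction I r M) [CompactSpace M] [T2Space M]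

/-- Normalised frames. -/
theorem exists_frame : ∃ θ : M → ℂ, (∀ x, θ x ≠ 0) ∧
    (∀ m (σ : M → ℂ), IsAnti I m σ → ∃ C, ∀ x, ‖σ x * θ x ^ m‖ ≤ C) ∧
    (∀ R : ℝ, ∃ δ > 0, ∀ u, ‖u‖ ≤ R → ∀ x,
      δ ≤ ‖θ (A.act u x) * jac I I (A.act u) x / θ x‖) := by
  obtain ⟨S, K, c, hK, hKs, hcS, hcK⟩ := exists_compact_cover (M := M) I
  have hsrc : ∀ x, x ∈ (chartAt H (c x)).source := fun x => hKs _ (hcK x)
  refine ⟨fun x => jac I 𝓘(ℂ, E) (extChartAt I (c x)) x, fun x => jac_chart_ne_zero (hsrc x),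
    fun m σ hσ => ?_, fun R => ?_⟩
  · have h1 : ∀ s, ∃ C, ∀ x ∈ K s, ‖σ x * jac I 𝓘(ℂ, E) (extChartAt I s) x ^ m‖ ≤ C := by
      intro s
      refine (hK s).exists_bound_of_continuousOn fun x hx => ?_
      exact ((hσ x).chart (hKs s hx)).continuousAt.continuousWithinAt
    choose C hC using h1
    refine ⟨∑ s ∈ S, |C s|, fun x => (hC (c x) x (hcK x)).trans ((le_abs_self _).trans ?_)⟩
    exact Finset.single_le_sum (f := fun s => |C s|) (fun s _ => abs_nonneg _) (hcS x)
  · let D : M → M → (Fin r → ℂ) × M → ℂ := fun s s' p =>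
      jac I 𝓘(ℂ, E) (extChartAt I s' ∘ A.act p.1) p.2 / jac I 𝓘(ℂ, E) (extChartAt I s) p.2
    have hDne : ∀ s s' p, p.2 ∈ (chartAt H s).source → A.act p.1 p.2 ∈ (chartAt H s').source →
        D s s' p ≠ 0 := by
      intro s s' p h1 h2
      simp only [D]
      rw [jac_comp (mdiffAt_chart h2) (A.mdiffAt _ _)]
      exact div_ne_zero (mul_ne_zero (jac_chart_ne_zero h2) (A.jac_ne_zero _ _))
        (jac_chart_ne_zero h1)
    have h1 : ∀ s s', ∃ C, ∀ p ∈ (Metric.closedBall (0 : Fin r → ℂ) R ×ˢ K s) ∩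
        (fun p => A.act p.1 p.2) ⁻¹' K s', ‖(D s s' p)⁻¹‖ ≤ C := by
      intro s s'
      have hcomp : IsCompact ((Metric.closedBall (0 : Fin r → ℂ) R ×ˢ K s) ∩
          (fun p => A.act p.1 p.2) ⁻¹' K s') :=
        ((isCompact_closedBall _ _).prod (hK s)).inter_right
          ((hK s').isClosed.preimage A.continuous)
      refine hcomp.exists_bound_of_continuousOn fun p hp => ?_
      have h2 := A.contMDiffAt_jac_div (s := s) (s' := s') (p := p) (hKs s hp.1.2) (hKs s' hp.2)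
      exact (h2.continuousAt.inv₀ (hDne s s' p (hKs s hp.1.2) (hKs s' hp.2))).continuousWithinAt
    choose C hC using h1
    refine ⟨(1 + ∑ s ∈ S, ∑ s' ∈ S, |C s s'|)⁻¹, by positivity, fun u hu x => ?_⟩
    have h2 := hC (c x) (c (A.act u x)) (u, x) ⟨⟨by simpa using hu, hcK x⟩, hcK _⟩
    have h3 : D (c x) (c (A.act u x)) (u, x) =
        jac I 𝓘(ℂ, E) (extChartAt I (c (A.act u x))) (A.act u x) * jac I I (A.act u) x /
          jac I 𝓘(ℂ, E) (extChartAt I (c x)) x := by
      simp only [D]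
      rw [jac_comp (mdiffAt_chart (hsrc _)) (A.mdiffAt _ _)]
    have h4 := hDne (c x) (c (A.act u x)) (u, x) (hsrc x) (hsrc _)
    rw [h3] at h2 h4
    have h5 : |C (c x) (c (A.act u x))| ≤ ∑ s ∈ S, ∑ s' ∈ S, |C s s'| :=
      (Finset.single_le_sum (f := fun s' => |C (c x) s'|) (fun s _ => abs_nonneg _)
        (hcS _)).trans (Finset.single_le_sum (f := fun s => ∑ s' ∈ S, |C s s'|)
        (fun s _ => Finset.sum_nonneg fun _ _ => abs_nonneg _) (hcS x))
    rw [norm_inv] at h2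
    have h6 := norm_pos_iff.2 h4
    rw [inv_le_comm₀ (by positivity) h6]
    exact (h2.trans (le_abs_self _)).trans (h5.trans (by linarith))

omit [CompactSpace M] [T2Space M] in
/-- `act u` is a holomorphic function of `u`. -/
theorem differentiable_pb {m : ℕ} {σ : M → ℂ} (hσ : IsAnti I m σ) (x : M) :
    Differentiable ℂ (fun u : Fin r → ℂ => A.pb m u σ x) := by
  intro u₀
  have hs : x ∈ (chartAt H x).source := mem_chart_source H x
  have hs' : A.act u₀ x ∈ (chartAt H (A.act u₀ x)).source := mem_chart_source H _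
  have h1 : ContMDiffAt 𝓘(ℂ, Fin r → ℂ) 𝓘(ℂ, ℂ) ω (fun u : Fin r → ℂ => σ (A.act u x) *
      jac I 𝓘(ℂ, E) (extChartAt I (A.act u₀ x)) (A.act u x) ^ m) u₀ :=
    ContMDiffAt.comp (x := u₀)
      (g := fun y => σ y * jac I 𝓘(ℂ, E) (extChartAt I (A.act u₀ x)) y ^ m)
      (f := fun u => A.act u x) (hσ (A.act u₀ x)) (A.contMDiff_left x u₀)
  have h2 : ContMDiffAt 𝓘(ℂ, Fin r → ℂ) 𝓘(ℂ, ℂ) ω (fun u : Fin r → ℂ =>
      jac I 𝓘(ℂ, E) (extChartAt I (A.act u₀ x) ∘ A.act u) x / jac I 𝓘(ℂ, E) (extChartAt I x) x)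
      u₀ := by
    have h3 := A.contMDiffAt_jac_div (s := x) (s' := A.act u₀ x) (p := (u₀, x)) hs hs'
    have h4 : ContMDiffAt 𝓘(ℂ, Fin r → ℂ) (𝓘(ℂ, Fin r → ℂ).prod I) ω
      (fun u : Fin r → ℂ => (u, x)) u₀ := contMDiffAt_id.prodMk contMDiffAt_const
    exact ContMDiffAt.comp (x := u₀) (f := fun u : Fin r → ℂ => (u, x)) h3 h4
  have hj : ∀ᶠ u in 𝓝 u₀, jac I 𝓘(ℂ, E) (extChartAt I (A.act u₀ x) ∘ A.act u) x =
      jac I 𝓘(ℂ, E) (extChartAt I (A.act u₀ x)) (A.act u x) * jac I I (A.act u) x ∧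
      jac I 𝓘(ℂ, E) (extChartAt I (A.act u₀ x)) (A.act u x) ≠ 0 := by
    filter_upwards [(A.contMDiff_left x u₀).continuousAt.eventually (source_mem hs')] with u hu
    exact ⟨jac_comp (mdiffAt_chart hu) (A.mdiffAt _ _), jac_chart_ne_zero hu⟩
  have h5 := (contMDiffAt_iff_contDiffAt.1 h1).differentiableAt (by simp)
  have h6 := (contMDiffAt_iff_contDiffAt.1 h2).differentiableAt (by simp)
  have hx := jac_chart_ne_zero (I := I) hs
  have h7 : (fun u : Fin r → ℂ => A.pb m u σ x) =ᶠ[𝓝 u₀] fun u =>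
      (σ (A.act u x) * jac I 𝓘(ℂ, E) (extChartAt I (A.act u₀ x)) (A.act u x) ^ m) /
      ((jac I 𝓘(ℂ, E) (extChartAt I (A.act u₀ x) ∘ A.act u) x /
        jac I 𝓘(ℂ, E) (extChartAt I x) x) ^ m * jac I 𝓘(ℂ, E) (extChartAt I x) x ^ m) := by
    filter_upwards [hj] with u hu
    rw [hu.1, ← mul_pow, div_mul_cancel₀ _ hx, mul_pow, pb]
    have h8 := pow_ne_zero m hu.2
    have h9 := pow_ne_zero m (A.jac_ne_zero u x)
    field_simp
  refine DifferentiableAt.congr_of_eventuallyEq ?_ h7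
  simp only [div_eq_mul_inv (_ * _) (_ * _)]
  refine h5.fun_mul (DifferentiableAt.fun_inv ((h6.fun_pow m).mul_const _) ?_)
  refine mul_ne_zero (pow_ne_zero m (div_ne_zero ?_ hx)) (pow_ne_zero m hx)
  rw [hj.self_of_nhds.1]
  exact mul_ne_zero hj.self_of_nhds.2 (A.jac_ne_zero _ _)

omit [I.Boundaryless] [IsManifold I ω M] [FiniteDimensional ℂ E] [CompactSpace M] [T2Space M] in
theorem act_periodic (j : Fin r) :
    Function.Periodic (fun c : ℂ => A.act (Pi.single j c)) (2 * Real.pi * Complex.I) := by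
  intro c
  funext x
  show A.act (Pi.single j (c + 2 * Real.pi * Complex.I)) x = A.act (Pi.single j c) x
  rw [Pi.single_add, A.add, A.period]

/-- Growth of the pull back of a section under a one-parameter subgroup. -/
theorem exists_growth (j : Fin r) {m : ℕ} {σ : M → ℂ} (hσ : IsAnti I m σ) :
    ∃ K : ℝ, 0 ≤ K ∧ ∀ x, ∃ C : ℝ, ∀ c : ℂ,
      ‖A.pb m (Pi.single j c) σ x‖ ≤ C * Real.exp (K * |c.re|) := by
  obtain ⟨θ, hθ, hθσ, hθJ⟩ := A.exists_frame
  obtain ⟨C₀, hC₀⟩ := hθσ m σ hσ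
  obtain ⟨δ₀, hδ₀, hJ⟩ := hθJ (1 + 2 * Real.pi)
  set δ : ℝ := min δ₀ 1 with hδ
  have hδ0 : 0 < δ := lt_min hδ₀ one_pos
  have hδ1 : δ ≤ 1 := min_le_right _ _
  let J : ℂ → M → ℂ := fun c x =>
    θ (A.act (Pi.single j c) x) * jac I I (A.act (Pi.single j c)) x / θ x
  have hJadd : ∀ a b x, J (a + b) x = J a (A.act (Pi.single j b) x) * J b x := by
    intro a b x
    simp only [J]
    rw [Pi.single_add, A.add, A.jac_add]
    have h1 := hθ (A.act (Pi.single j b) x)
    have h2 := hθ x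
    field_simp
  have hJ1 : ∀ c : ℂ, |c.re| ≤ 1 → ∀ x, δ ≤ ‖J c x‖ := by
    intro c hc x
    have h2pi : 0 < 2 * Real.pi := by positivity
    let l : ℤ := ⌊c.im / (2 * Real.pi)⌋
    let c₁ : ℂ := c - l * (2 * Real.pi * Complex.I)
    have h1 : A.act (Pi.single j c₁) = A.act (Pi.single j c) :=
      (A.act_periodic j).sub_int_mul_eq l
    have h2 : J c x = J c₁ x := by simp only [J, h1]
    rw [h2]
    refine (min_le_left _ _).trans (hJ _ ?_ x)
    have h3 : ‖(Pi.single j c₁ : Fin r → ℂ)‖ ≤ ‖c₁‖ := by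
      refine (pi_norm_le_iff_of_nonneg (norm_nonneg _)).2 fun i => ?_
      rcases eq_or_ne i j with rfl | hij
      · simp
      · simp [Pi.single_eq_of_ne hij]
    have h4 : c₁.re = c.re := by simp [c₁]
    have h5 : c₁.im = c.im - l * (2 * Real.pi) := by simp [c₁]
    have h6 : 0 ≤ c₁.im ∧ c₁.im ≤ 2 * Real.pi := by
      have h7 := Int.floor_le (c.im / (2 * Real.pi))
      have h8 := (Int.lt_floor_add_one (c.im / (2 * Real.pi))).le
      rw [le_div_iff₀ h2pi] at h7
      rw [div_le_iff₀ h2pi] at h8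
      rw [h5]
      constructor
      · simp only [l]; linarith
      · simp only [l]; linarith
    refine h3.trans ((Complex.norm_le_abs_re_add_abs_im c₁).trans ?_)
    rw [h4, abs_of_nonneg h6.1]
    linarith [h6.2]
  have hJk : ∀ k : ℕ, ∀ c : ℂ, |c.re| ≤ k + 1 → ∀ x, δ ^ (k + 1) ≤ ‖J c x‖ := by
    intro k
    induction k with
    | zero =>
      intro c hc x
      simpa using hJ1 c (by simpa using hc) x
    | succ k ih =>
      intro c hc x
      by_cases h1 : |c.re| ≤ k + 1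
      · refine le_trans ?_ (ih c h1 x)
        exact pow_le_pow_of_le_one hδ0.le hδ1 (by omega)
      · push Not at h1
        rcases le_or_gt 0 c.re with h2 | h2
        · rw [abs_of_nonneg h2] at h1 hc
          have h3 : c = (c - 1) + 1 := by ring
          rw [h3, hJadd, norm_mul, pow_succ]
          have h4 := ih (c - 1) (by
            rw [Complex.sub_re, Complex.one_re, abs_le]
            push_cast at hc
            constructor <;> linarith) (A.act (Pi.single j 1) x)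
          have h5 := hJ1 1 (by simp) x
          exact mul_le_mul h4 h5 hδ0.le (norm_nonneg _)
        · rw [abs_of_neg h2] at h1 hc
          have h3 : c = (c + 1) + (-1) := by ring
          rw [h3, hJadd, norm_mul, pow_succ]
          have h4 := ih (c + 1) (by
            rw [Complex.add_re, Complex.one_re, abs_le]
            push_cast at hc
            constructor <;> linarith) (A.act (Pi.single j (-1)) x)
          have h5 := hJ1 (-1) (by simp) x
          exact mul_le_mul h4 h5 hδ0.le (norm_nonneg _)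
  set κ : ℝ := -Real.log δ with hκ
  have hκ0 : 0 ≤ κ := by
    have := Real.log_nonpos hδ0.le hδ1
    linarith
  have hJe : ∀ c : ℂ, ∀ x, Real.exp (-(κ * (|c.re| + 2))) ≤ ‖J c x‖ := by
    intro c x
    refine le_trans ?_ (hJk ⌈|c.re|⌉₊ c ((Nat.le_ceil _).trans (by linarith)) x)
    have h1 : δ ^ (⌈|c.re|⌉₊ + 1) = Real.exp (-(κ * (⌈|c.re|⌉₊ + 1))) := by
      rw [← Real.rpow_natCast, Real.rpow_def_of_pos hδ0]
      congr 1
      push_cast
      ring
    rw [h1]
    refine Real.exp_le_exp.2 (neg_le_neg (mul_le_mul_of_nonneg_left ?_ hκ0))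
    have := (Nat.ceil_lt_add_one (abs_nonneg c.re)).le
    linarith
  have hC₀0 : ∀ x : M, 0 ≤ C₀ := fun x => (norm_nonneg _).trans (hC₀ x)
  refine ⟨κ * m, by positivity, fun x => ⟨C₀ * Real.exp (2 * κ * m) / ‖θ x‖ ^ m, fun c => ?_⟩⟩
  have hθx : 0 < ‖θ x‖ := norm_pos_iff.2 (hθ x)
  have h1 : A.pb m (Pi.single j c) σ x =
      (σ (A.act (Pi.single j c) x) * θ (A.act (Pi.single j c) x) ^ m) / (J c x ^ m * θ x ^ m) := by
    simp only [J, pb]
    rw [← mul_pow, div_mul_cancel₀ _ (hθ x), mul_pow]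
    have h2 := pow_ne_zero m (hθ (A.act (Pi.single j c) x))
    have h3 := pow_ne_zero m (A.jac_ne_zero (Pi.single j c) x)
    field_simp
  rw [h1, norm_div, norm_mul (J c x ^ m), norm_pow, norm_pow]
  have h4 : Real.exp (-(κ * (|c.re| + 2))) ^ m ≤ ‖J c x‖ ^ m :=
    pow_le_pow_left₀ (Real.exp_pos _).le (hJe c x) m
  have h5 : 0 < Real.exp (-(κ * (|c.re| + 2))) ^ m := pow_pos (Real.exp_pos _) m
  calc ‖σ (A.act (Pi.single j c) x) * θ (A.act (Pi.single j c) x) ^ m‖ / (‖J c x‖ ^ m * ‖θ x‖ ^ m)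
      ≤ C₀ / (Real.exp (-(κ * (|c.re| + 2))) ^ m * ‖θ x‖ ^ m) := by
        gcongr
        · exact hC₀0 x
        · exact hC₀ _
    _ = C₀ * Real.exp (2 * κ * m) / ‖θ x‖ ^ m * Real.exp (κ * m * |c.re|) := by
        rw [← Real.exp_nat_mul]
        have h6 : Real.exp (2 * κ * m) * Real.exp (κ * m * |c.re|) =
            (Real.exp (m * -(κ * (|c.re| + 2))))⁻¹ := by
          rw [← Real.exp_neg, ← Real.exp_add]
          congr 1
          ring
        rw [mul_comm (Real.exp _), ← div_div, div_mul_eq_mul_div, mul_assoc, h6]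
        field_simp

end TorusAction

end Vale.Agent.P299.H904
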