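import Vale.Agent.P299.H904.Final

/-!
# Nonvanishing for manifolds with log canonical torus fibres
-/

open scoped Manifold ContDiff Topology ENNReal
open Set Filter MeasureTheory

noncomputable section

set_option linter.unusedSectionVars false

namespace Vale.Agent.P299.H904

variable {F G : Type*} [NormedAddCommGroup F] [NormedSpace ℂ F] [FiniteDimensional ℂ F]
  [TopologicalSpace G] {J : ModelWithCorners ℂ F G} [J.Boundaryless] {Z : Type*}
  [TopologicalSpace Z] [ChartedSpace G Z] [IsManifold J ω Z] {r : ℕ} {A : TorusAction J r Z}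

theorem invariantlyEffective_of_lc [MeasurableSpace F] [BorelSpace F] {μ : Measure F}
    [μ.IsAddHaarMeasure] [CompactSpace Z] [T2Space Z] [ConnectedSpace Z]
    (h : HasLCFamily J μ Z) : InvariantlyEffective A := by
  obtain ⟨m, N, s, hm, hs, hlc⟩ := h
  have h1 : IsLC J μ m s := hlc.elim id (isLC_of_ne_zero μ hs)
  obtain ⟨M, σ, hM, hσ, h0, hinv⟩ := exists_invariant μ A hm hs h1
  refine ⟨M, σ, hM, hσ, h0, fun u x => ?_⟩
  have h2 := hinv u x
  unfold TorusAction.pb at h2
  rw [div_eq_iff (pow_ne_zero M (A.jac_ne_zero u x))] at h2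
  exact h2

variable {E H HX : Type*} [NormedAddCommGroup E] [NormedSpace ℂ E] [FiniteDimensional ℂ E]
  [TopologicalSpace H] [TopologicalSpace HX] {I : ModelWithCorners ℂ E H} [I.Boundaryless]
  {K : ModelWithCorners ℂ (E × F) HX} [K.Boundaryless]

theorem InvariantlyEffective.quotient (hA : InvariantlyEffective A) {D X Γ : Type*}
    [TopologicalSpace D] [ChartedSpace H D] [IsManifold I ω D] [ConnectedSpace D]
    [TopologicalSpace X] [ChartedSpace HX X] [IsManifold K ω X] [PreconnectedSpace Z]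
    [Group Γ] [MulAction Γ D] [MulAction Γ Z] {Γ₀ : Subgroup Γ} {p : D × Z → X}
    (h : IsTorusQuotient I K A Γ₀ p) (hD : FixesSection I D Γ₀) :
    AntiEffective K X := by
  obtain ⟨M, s, hM, hs, ⟨z, hz⟩, hinv⟩ := hA
  obtain ⟨k, t, hk, ht, ⟨d, hd⟩, htinv⟩ := hD
  have hΓ : ∀ γ : Γ, ContMDiff (I.prod J) (I.prod J) ω
      (fun x : D × Z => γ • x) := fun γ => (h.holo_left γ).prodMap (h.holo_right γ)
  have hj : ∀ (γ : Γ) (x : D × Z),
      jac (I.prod J) (I.prod J) (fun y : D × Z => γ • y) x =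
        jac I I (fun y : D => γ • y) x.1 * jac J J (fun y : Z => γ • y) x.2 := fun γ x =>
    jac_prodMap (f := fun y : D => γ • y) (g := fun y : Z => γ • y)
      ((h.holo_left γ _).mdifferentiableAt (by simp))
      ((h.holo_right γ _).mdifferentiableAt (by simp))
  have ht2 : IsAnti I (k * M) (fun x => t x ^ M) := fun x => by
    rw [mul_comm]
    exact (ht x).pow M
  have hs2 : IsAnti J (k * M) (fun x => s x ^ k) := fun x => (hs x).pow k
  have := h.index
  refine exists_quotient (I' := K) hΓ Γ₀ h.diffeo h.surj h.fibre (a := k * M)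
    (Nat.mul_pos hk hM)
    (ht2.boxProd hs2) ⟨(d, z), mul_ne_zero (pow_ne_zero M hd) (pow_ne_zero k hz)⟩ ?_
  intro γ hγ x
  obtain ⟨u, hu⟩ := h.torus γ hγ
  have h1 : (fun y : Z => γ • y) = A.act u := funext hu
  rw [hj, h1]
  show t (γ • x.1) ^ M * s (γ • x.2) ^ k = _
  rw [htinv γ hγ, hu, hinv]
  ring

theorem InvariantlyEffective.bundle (hA : InvariantlyEffective A) {B X Y ι : Type*}
    [TopologicalSpace B] [ChartedSpace H B] [IsManifold I ω B]
    [TopologicalSpace X] [ChartedSpace HX X] [IsManifold K ω X] [PreconnectedSpace X]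
    [TopologicalSpace Y] [ChartedSpace HX Y] [IsManifold K ω Y] [ConnectedSpace Y]
    (hB : AntiEffective I B) {π : X → B} {U : ι → Set B} {φ : ι → B × Z → X}
    (hX : IsTorusBundle I K A π U φ) {q : X → Y} (hq : IsFiniteCover K q) :
    AntiEffective K Y := by
  obtain ⟨M, s, hM, hs, ⟨z, hz⟩, hinv⟩ := hA
  obtain ⟨k, t, hk, ht, ⟨b, hb⟩⟩ := hB
  have ht2 : IsAnti I (k * M) (fun x => t x ^ M) := fun x => by
    rw [mul_comm]
    exact (ht x).pow M
  have hs2 : IsAnti J (k * M) (fun x => s x ^ k) := fun x => (hs x).pow k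
  obtain ⟨σ, hσ, h0⟩ := hX.exists_section ht2 ⟨b, pow_ne_zero M hb⟩ hs2 ⟨z, pow_ne_zero k hz⟩
    (fun u z => by rw [hinv]; ring)
  obtain ⟨d, τ, hd, hτ, h1⟩ := exists_norm hq.diffeo hq.covering hq.finite
    (fun y => hq.surj y) hσ h0
  exact ⟨d * (k * M), τ, Nat.mul_pos hd (Nat.mul_pos hk hM), hτ, h1⟩

end Vale.Agent.P299.H904
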