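import Vale.Agent.P299.H904.Torus
import Vale.Agent.P299.H904.Descend

/-!
# Products of manifolds
-/

open scoped Manifold ContDiff Topology
open Set Filter

noncomputable section

set_option linter.unusedSectionVars false

namespace Vale.Agent.P299.H904

section det

variable {E F : Type*} [AddCommGroup E] [Module ℂ E] [FiniteDimensional ℂ E]
  [AddCommGroup F] [Module ℂ F] [FiniteDimensional ℂ F]

/-- The determinant of a block triangular endomorphism. -/
theorem det_triangular (A : E × F →ₗ[ℂ] E × F) (a : E →ₗ[ℂ] E) (B : E →ₗ[ℂ] F) (d : F →ₗ[ℂ] F)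
    (h : ∀ v w, A (v, w) = (a v, B v + d w)) :
    LinearMap.det A = LinearMap.det a * LinearMap.det d := by
  classical
  let b := Module.finBasis ℂ E
  let b' := Module.finBasis ℂ F
  have h1 : LinearMap.toMatrix (b.prod b') (b.prod b') A = Matrix.fromBlocks
      (LinearMap.toMatrix b b a) 0 (LinearMap.toMatrix b b' B) (LinearMap.toMatrix b' b' d) := by
    ext (i | i) (j | j)
    · rw [LinearMap.toMatrix_apply, Matrix.fromBlocks_apply₁₁, LinearMap.toMatrix_apply,
        Module.Basis.prod_apply]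
      simp [h]
    · rw [LinearMap.toMatrix_apply, Matrix.fromBlocks_apply₁₂,
        Module.Basis.prod_apply]
      simp [h]
    · rw [LinearMap.toMatrix_apply, Matrix.fromBlocks_apply₂₁, LinearMap.toMatrix_apply,
        Module.Basis.prod_apply]
      simp [h]
    · rw [LinearMap.toMatrix_apply, Matrix.fromBlocks_apply₂₂, LinearMap.toMatrix_apply,
        Module.Basis.prod_apply]
      simp [h]
  rw [← LinearMap.det_toMatrix (b.prod b'), h1, Matrix.det_fromBlocks_zero₁₂,
    LinearMap.det_toMatrix, LinearMap.det_toMatrix]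

end det

section jac

variable {E F H G H' G' : Type*} [NormedAddCommGroup E] [NormedSpace ℂ E] [FiniteDimensional ℂ E]
  [NormedAddCommGroup F] [NormedSpace ℂ F] [FiniteDimensional ℂ F]
  [TopologicalSpace H] [TopologicalSpace G] [TopologicalSpace H'] [TopologicalSpace G']
  {I : ModelWithCorners ℂ E H} {J : ModelWithCorners ℂ F G}
  {I' : ModelWithCorners ℂ E H'} {J' : ModelWithCorners ℂ F G'}
  {D Z D' Z' : Type*} [TopologicalSpace D] [ChartedSpace H D] [TopologicalSpace Z]
  [ChartedSpace G Z] [TopologicalSpace D'] [ChartedSpace H' D'] [TopologicalSpace Z']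
  [ChartedSpace G' Z']

/-- The Jacobian determinant of a product map. -/
theorem jac_prodMap {f : D → D'} {g : Z → Z'} {x : D × Z} (hf : MDifferentiableAt I I' f x.1)
    (hg : MDifferentiableAt J J' g x.2) :
    jac (I.prod J) (I'.prod J') (Prod.map f g) x = jac I I' f x.1 * jac J J' g x.2 := by
  unfold jac
  rw [mfderiv_prodMap hf hg]
  exact LinearMap.det_prodMap (show E →L[ℂ] E from mfderiv I I' f x.1).toLinearMap
    (show F →L[ℂ] F from mfderiv J J' g x.2).toLinearMap

/-- The Jacobian determinant of a map `(d, z) ↦ (τ d, φ d z)`. -/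
theorem jac_skew {τ : D → D'} {φ : D × Z → Z'} {x : D × Z} (hτ : MDifferentiableAt I I' τ x.1)
    (hφ : MDifferentiableAt (I.prod J) J' φ x) :
    jac (I.prod J) (I'.prod J') (fun y : D × Z => (τ y.1, φ y)) x =
      jac I I' τ x.1 * jac J J' (fun z => φ (x.1, z)) x.2 := by
  have h1 : MDifferentiableAt (I.prod J) I' (fun y : D × Z => τ y.1) x :=
    hτ.comp x mdifferentiableAt_fst
  have h2 := mfderiv_prodMk h1 hφ
  refine det_triangular
    (show E × F →L[ℂ] E × F from
      mfderiv (I.prod J) (I'.prod J') (fun y : D × Z => (τ y.1, φ y)) x).toLinearMap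
    (show E →L[ℂ] E from mfderiv I I' τ x.1).toLinearMap
    (show E →L[ℂ] F from mfderiv I J' (fun d => φ (d, x.2)) x.1).toLinearMap
    (show F →L[ℂ] F from mfderiv J J' (fun z => φ (x.1, z)) x.2).toLinearMap ?_
  intro v w
  have h3 : mfderiv (I.prod J) (I'.prod J') (fun y : D × Z => (τ y.1, φ y)) x (v, w) =
      (mfderiv (I.prod J) I' (fun y : D × Z => τ y.1) x (v, w),
        mfderiv (I.prod J) J' φ x (v, w)) := by
    rw [h2]
    rfl
  have h4 : mfderiv (I.prod J) I' (fun y : D × Z => τ y.1) x (v, w) =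
      mfderiv I I' τ x.1 v := by
    have h5 := mfderiv_comp (I := I.prod J) (I' := I) (I'' := I') x (g := τ)
      (f := (Prod.fst : D × Z → D)) hτ (mdifferentiableAt_fst (I := I) (I' := J) (x := x))
    have h6 : (fun y : D × Z => τ y.1) = τ ∘ Prod.fst := rfl
    rw [h6, h5, mfderiv_fst]
    rfl
  have h7 := mfderiv_prod_eq_add_apply (v := (v, w)) hφ
  exact h3.trans (Prod.ext h4 h7)

variable [I.Boundaryless] [IsManifold I ω D] [J.Boundaryless] [IsManifold J ω Z]

/-- The exterior product of a section on `D` and of a section on `Z`. -/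
theorem IsAnti.boxProd {a : ℕ} {t : D → ℂ} {s : Z → ℂ} (ht : IsAnti I a t) (hs : IsAnti J a s) :
    IsAnti (I.prod J) a (fun x : D × Z => t x.1 * s x.2) := by
  intro x₀
  have h1 : ContMDiffAt (I.prod J) 𝓘(ℂ, ℂ) ω
      (fun x : D × Z => t x.1 * jac I 𝓘(ℂ, E) (extChartAt I x₀.1) x.1 ^ a) x₀ :=
    ContMDiffAt.comp x₀ (g := fun d => t d * jac I 𝓘(ℂ, E) (extChartAt I x₀.1) d ^ a)
      (f := Prod.fst) (ht x₀.1) contMDiffAt_fst
  have h2 : ContMDiffAt (I.prod J) 𝓘(ℂ, ℂ) ω
      (fun x : D × Z => s x.2 * jac J 𝓘(ℂ, F) (extChartAt J x₀.2) x.2 ^ a) x₀ :=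
    ContMDiffAt.comp x₀ (g := fun z => s z * jac J 𝓘(ℂ, F) (extChartAt J x₀.2) z ^ a)
      (f := Prod.snd) (hs x₀.2) contMDiffAt_snd
  refine (ContMDiffAt.mul h1 h2).congr_of_eventuallyEq ?_
  have h3 : ∀ᶠ x : D × Z in 𝓝 x₀, x.1 ∈ (chartAt H x₀.1).source :=
    continuous_fst.continuousAt.eventually (source_mem (mem_chart_source H x₀.1))
  have h4 : ∀ᶠ x : D × Z in 𝓝 x₀, x.2 ∈ (chartAt G x₀.2).source :=
    continuous_snd.continuousAt.eventually (source_mem (mem_chart_source G x₀.2))
  filter_upwards [h3, h4] with x hx1 hx2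
  have h5 : jac (I.prod J) 𝓘(ℂ, E × F) (extChartAt (I.prod J) x₀) x =
      jac I 𝓘(ℂ, E) (extChartAt I x₀.1) x.1 * jac J 𝓘(ℂ, F) (extChartAt J x₀.2) x.2 := by
    have h6 := jac_prodMap (I' := 𝓘(ℂ, E)) (J' := 𝓘(ℂ, F)) (x := x)
      (mdiffAt_chart (I := I) hx1) (mdiffAt_chart (I := J) hx2)
    rw [← h6, modelWithCornersSelf_prod, ← chartedSpaceSelf_prod, extChartAt_prod]
    rfl
  rw [h5, Pi.mul_apply]
  ring

end jac

end Vale.Agent.P299.H904
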