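import Vale.Agent.P299.H904.Basic

/-!
# Products, descent and the identity theorem for pluri-anticanonical sections
-/

open scoped Manifold ContDiff Topology
open Set Filter

noncomputable section

set_option linter.unusedSectionVars false

namespace Vale.Agent.P299.H904

variable {E H H' : Type*} [NormedAddCommGroup E] [NormedSpace ℂ E]
  [TopologicalSpace H] [TopologicalSpace H']
  {I : ModelWithCorners ℂ E H} {I' : ModelWithCorners ℂ E H'}
  {M M' : Type*} [TopologicalSpace M] [ChartedSpace H M]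
  [TopologicalSpace M'] [ChartedSpace H' M']

/-! ### Algebra -/

theorem IsAntiAt.mul {a b : ℕ} {σ τ : M → ℂ} {x : M} (hσ : IsAntiAt I a σ x)
    (hτ : IsAntiAt I b τ x) : IsAntiAt I (a + b) (fun y => σ y * τ y) x := by
  have h := ContMDiffAt.mul hσ hτ
  refine h.congr_of_eventuallyEq (Eventually.of_forall fun y => ?_)
  simp only [Pi.mul_apply, pow_add]
  ring

theorem isAntiAt_one (x : M) : IsAntiAt I 0 (fun _ : M => (1 : ℂ)) x := by
  unfold IsAntiAt
  simp only [pow_zero, mul_one]
  exact contMDiffAt_const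

theorem isAntiAt_zero (m : ℕ) (x : M) : IsAntiAt I m (fun _ : M => (0 : ℂ)) x := by
  unfold IsAntiAt
  simp only [zero_mul]
  exact contMDiffAt_const

theorem IsAntiAt.congr {m : ℕ} {σ τ : M → ℂ} {x : M} (hσ : IsAntiAt I m σ x)
    (h : τ =ᶠ[𝓝 x] σ) : IsAntiAt I m τ x := by
  refine ContMDiffAt.congr_of_eventuallyEq hσ ?_
  filter_upwards [h] with y hy
  rw [hy]

theorem IsAntiAt.pow {m : ℕ} {σ : M → ℂ} {x : M} (hσ : IsAntiAt I m σ x) (k : ℕ) :
    IsAntiAt I (k * m) (fun y => σ y ^ k) x := by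
  induction k with
  | zero =>
    simp only [zero_mul, pow_zero]
    exact isAntiAt_one x
  | succ k ih =>
    rw [add_mul, one_mul]
    exact (ih.mul hσ).congr (Eventually.of_forall fun y => by simp only [pow_succ])

theorem IsAntiAt.prod {ι : Type*} {S : Finset ι} {m : ι → ℕ} {σ : ι → M → ℂ} {x : M}
    (hσ : ∀ i ∈ S, IsAntiAt I (m i) (σ i) x) :
    IsAntiAt I (∑ i ∈ S, m i) (fun y => ∏ i ∈ S, σ i y) x := by
  classical
  induction S using Finset.induction_on with
  | empty =>
    simp only [Finset.sum_empty, Finset.prod_empty]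
    exact isAntiAt_one x
  | insert i S hi ih =>
    rw [Finset.sum_insert hi]
    refine ((hσ i (Finset.mem_insert_self i S)).mul
      (ih fun j hj => hσ j (Finset.mem_insert_of_mem hj))).congr
      (Eventually.of_forall fun y => ?_)
    simp only [Finset.prod_insert hi]

theorem IsAntiAt.add {m : ℕ} {σ τ : M → ℂ} {x : M} (hσ : IsAntiAt I m σ x)
    (hτ : IsAntiAt I m τ x) : IsAntiAt I m (fun y => σ y + τ y) x := by
  have h := ContMDiffAt.add hσ hτ
  refine h.congr_of_eventuallyEq (Eventually.of_forall fun y => ?_)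
  simp only [Pi.add_apply]
  ring

theorem IsAntiAt.const_mul {m : ℕ} {σ : M → ℂ} {x : M} (hσ : IsAntiAt I m σ x) (c : ℂ) :
    IsAntiAt I m (fun y => c * σ y) x := by
  have h := ContMDiffAt.mul (contMDiffAt_const (c := c)) hσ
  refine h.congr_of_eventuallyEq (Eventually.of_forall fun y => ?_)
  simp only [Pi.mul_apply]
  ring

theorem IsAntiAt.sum {ι : Type*} {S : Finset ι} {m : ℕ} {σ : ι → M → ℂ} {x : M}
    (hσ : ∀ i ∈ S, IsAntiAt I m (σ i) x) :
    IsAntiAt I m (fun y => ∑ i ∈ S, σ i y) x := by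
  classical
  induction S using Finset.induction_on with
  | empty =>
    simp only [Finset.sum_empty]
    exact isAntiAt_zero m x
  | insert i S hi ih =>
    refine ((hσ i (Finset.mem_insert_self i S)).add
      (ih fun j hj => hσ j (Finset.mem_insert_of_mem hj))).congr
      (Eventually.of_forall fun y => ?_)
    simp only [Finset.sum_insert hi]

/-! ### Identity theorem -/

variable [I.Boundaryless] [IsManifold I ω M] [FiniteDimensional ℂ E]

/-- The set where a section is not zero is open. -/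
theorem IsAntiAt.eventually_ne {m : ℕ} {σ : M → ℂ} {x : M} (hσ : IsAntiAt I m σ x)
    (h : σ x ≠ 0) : ∀ᶠ y in 𝓝 x, σ y ≠ 0 := by
  have h1 := hσ.continuousAt
  have h2 : σ x * jac I 𝓘(ℂ, E) (extChartAt I x) x ^ m ≠ 0 :=
    mul_ne_zero h (pow_ne_zero m (jac_chart_ne_zero (mem_chart_source H x)))
  filter_upwards [h1.eventually_ne h2] with y hy
  exact left_ne_zero_of_mul hy

/-- The coordinate of a section in a chart, as a function on the model space. -/
theorem IsAnti.analyticAt_coord {m : ℕ} {σ : M → ℂ} (hσ : IsAnti I m σ) (x₀ : M) {z : E}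
    (hz : z ∈ (extChartAt I x₀).target) :
    AnalyticAt ℂ (fun w => σ ((extChartAt I x₀).symm w) *
      jac I 𝓘(ℂ, E) (extChartAt I x₀) ((extChartAt I x₀).symm w) ^ m) z := by
  have hs : (extChartAt I x₀).symm z ∈ (chartAt H x₀).source := by
    have := (extChartAt I x₀).map_target hz
    rwa [extChartAt_source] at this
  have h1 := (hσ ((extChartAt I x₀).symm z)).chart hs
  have h2 : ContMDiffAt 𝓘(ℂ, E) I ω (extChartAt I x₀).symm z :=
    (contMDiffOn_extChartAt_symm (I := I) (n := ω) x₀ z hz).contMDiffAt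
      ((isOpen_extChartAt_target x₀).mem_nhds hz)
  have h3 := h1.comp z h2
  exact (contMDiffAt_iff_contDiffAt.1 h3).analyticAt

theorem IsAnti.eq_zero_of_eventually [PreconnectedSpace M] {m : ℕ} {σ : M → ℂ}
    (hσ : IsAnti I m σ) {x₀ : M} (h : ∀ᶠ y in 𝓝 x₀, σ y = 0) (x : M) : σ x = 0 := by
  let U : Set M := {x | ∀ᶠ y in 𝓝 x, σ y = 0}
  have hU : IsOpen U := isOpen_setOfPred_eventually_nhds
  have hUc : IsClosed U := by
    rw [← closure_subset_iff_isClosed]
    intro x hx
    -- the coordinate near `x`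
    let φ := extChartAt I x
    let C : E → ℂ := fun w => σ (φ.symm w) * jac I 𝓘(ℂ, E) (extChartAt I x) (φ.symm w) ^ m
    obtain ⟨ρ, hρ, hball⟩ := Metric.mem_nhds_iff.1
      ((isOpen_extChartAt_target (I := I) x).mem_nhds
        (mem_target (I := I) (mem_chart_source H x)))
    have hC : AnalyticOnNhd ℂ C (Metric.ball (φ x) ρ) := fun z hz =>
      hσ.analyticAt_coord x (hball hz)
    -- a point of `U` near `x`
    have hnhds : φ ⁻¹' (Metric.ball (φ x) ρ) ∩ (chartAt H x).source ∈ 𝓝 x :=
      inter_mem ((continuousAt_extChartAt (I := I) x) (Metric.ball_mem_nhds _ hρ))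
        (source_mem (mem_chart_source H x))
    obtain ⟨y, hy, hyU⟩ := mem_closure_iff_nhds.1 hx _ hnhds
    have hy0 : C =ᶠ[𝓝 (φ y)] 0 := by
      have hc : ContinuousAt φ.symm (φ y) := continuousAt_extChartAt_symm' (by
        rw [extChartAt_source]; exact hy.2)
      have h1 : ∀ᶠ z in 𝓝 (φ.symm (φ y)), σ z = 0 := by
        rw [left_inv' hy.2]; exact hyU
      filter_upwards [hc.eventually h1] with w hw
      simp only [C, hw, zero_mul, Pi.zero_apply]
    have hzero := hC.eqOn_zero_of_preconnected_of_eventuallyEq_zero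
      (convex_ball (φ x) ρ).isPreconnected hy.1 hy0
    filter_upwards [hnhds] with z hz
    have h2 := hzero hz.1
    simp only [C, φ, Pi.zero_apply, left_inv' hz.2] at h2
    exact (mul_eq_zero.1 h2).resolve_right (pow_ne_zero m (jac_chart_ne_zero hz.2))
  have huniv : U = univ := IsClopen.eq_univ ⟨hUc, hU⟩ ⟨x₀, h⟩
  have : x ∈ U := huniv ▸ mem_univ x
  exact this.self_of_nhds

/-- The set where a nonzero section does not vanish is dense. -/
theorem IsAnti.dense_ne [PreconnectedSpace M] {m : ℕ} {σ : M → ℂ}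
    (hσ : IsAnti I m σ) (h : ∃ x, σ x ≠ 0) : Dense {x | σ x ≠ 0} := by
  intro x
  by_contra hx
  rw [mem_closure_iff_nhds] at hx
  push Not at hx
  obtain ⟨t, ht, hte⟩ := hx
  obtain ⟨a, ha⟩ := h
  refine ha (hσ.eq_zero_of_eventually (x₀ := x) ?_ a)
  filter_upwards [ht] with y hy
  by_contra hy0
  exact (Set.eq_empty_iff_forall_notMem.1 hte) y ⟨hy, hy0⟩

theorem IsAnti.isOpen_ne {m : ℕ} {σ : M → ℂ} (hσ : IsAnti I m σ) : IsOpen {x | σ x ≠ 0} :=
  isOpen_iff_mem_nhds.2 fun _ hx => (hσ _).eventually_ne hx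

/-- A finite product of nonzero sections is nonzero. -/
theorem exists_prod_ne_zero [PreconnectedSpace M] [Nonempty M] {ι : Type*} {S : Finset ι}
    {m : ι → ℕ} {σ : ι → M → ℂ} (hσ : ∀ i ∈ S, IsAnti I (m i) (σ i))
    (h : ∀ i ∈ S, ∃ x, σ i x ≠ 0) : ∃ x, ∀ i ∈ S, σ i x ≠ 0 := by
  classical
  have key : IsOpen {x | ∀ i ∈ S, σ i x ≠ 0} ∧ Dense {x | ∀ i ∈ S, σ i x ≠ 0} := by
    induction S using Finset.induction_on with
    | empty => simp
    | insert i S hi ih =>
      have h1 := ih (fun j hj => hσ j (Finset.mem_insert_of_mem hj))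
        (fun j hj => h j (Finset.mem_insert_of_mem hj))
      have h2 : {x | ∀ j ∈ insert i S, σ j x ≠ 0} =
          {x | σ i x ≠ 0} ∩ {x | ∀ j ∈ S, σ j x ≠ 0} := by
        ext x
        simp
      rw [h2]
      have h3 := hσ i (Finset.mem_insert_self i S)
      exact ⟨h3.isOpen_ne.inter h1.1, Dense.inter_of_isOpen_left
        (h3.dense_ne (h i (Finset.mem_insert_self i S))) h1.2 h3.isOpen_ne⟩
  exact key.2.nonempty

end Vale.Agent.P299.H904
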