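import Vale.Agent.P299.H904.Sect

/-!
# Holomorphic actions of tori on complex manifolds
-/

open scoped Manifold ContDiff Topology
open Set Filter

noncomputable section

set_option linter.unusedSectionVars false

namespace Vale.Agent.P299.H904

variable {E H : Type*} [NormedAddCommGroup E] [NormedSpace ℂ E]
  [TopologicalSpace H] (I : ModelWithCorners ℂ E H)

variable {I} {M : Type*} [TopologicalSpace M] [ChartedSpace H M] {r : ℕ}

namespace TorusAction

variable (A : TorusAction I r M)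

theorem contMDiff (u : Fin r → ℂ) : ContMDiff I I ω (A.act u) := by
  have h : ContMDiff I (𝓘(ℂ, Fin r → ℂ).prod I) ω (fun x : M => (u, x)) :=
    contMDiff_const.prodMk contMDiff_id
  exact A.holo.comp h

theorem contMDiff_left (x : M) : ContMDiff 𝓘(ℂ, Fin r → ℂ) I ω (fun u => A.act u x) := by
  have h : ContMDiff 𝓘(ℂ, Fin r → ℂ) (𝓘(ℂ, Fin r → ℂ).prod I) ω
      (fun u : Fin r → ℂ => (u, x)) := contMDiff_id.prodMk contMDiff_const
  exact A.holo.comp h

theorem continuous : Continuous (fun p : (Fin r → ℂ) × M => A.act p.1 p.2) := A.holo.continuous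

theorem mdiffAt (u : Fin r → ℂ) (x : M) : MDifferentiableAt I I (A.act u) x :=
  (A.contMDiff u x).mdifferentiableAt (by simp)

theorem jac_zero (x : M) : jac I I (A.act 0) x = 1 := by
  rw [← jac_id (I := I) x]
  exact jac_congr (Eventually.of_forall fun y => A.zero y)

theorem jac_add (u v : Fin r → ℂ) (x : M) :
    jac I I (A.act (u + v)) x = jac I I (A.act u) (A.act v x) * jac I I (A.act v) x := by
  rw [← jac_comp (A.mdiffAt u _) (A.mdiffAt v x)]
  exact jac_congr (Eventually.of_forall fun y => A.add u v y)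

theorem jac_ne_zero (u : Fin r → ℂ) (x : M) : jac I I (A.act u) x ≠ 0 := by
  have h := A.jac_add (-u) u x
  rw [neg_add_cancel, A.jac_zero] at h
  exact right_ne_zero_of_mul (h ▸ one_ne_zero)

/-- The pull back of a section under `act u`. -/
def pb (m : ℕ) (u : Fin r → ℂ) (σ : M → ℂ) (x : M) : ℂ :=
  σ (A.act u x) / jac I I (A.act u) x ^ m

theorem pb_zero (m : ℕ) (σ : M → ℂ) (x : M) : A.pb m 0 σ x = σ x := by
  simp [pb, A.zero, A.jac_zero]

theorem pb_add (m : ℕ) (u v : Fin r → ℂ) (σ : M → ℂ) (x : M) :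
    A.pb m (u + v) σ x = A.pb m v (A.pb m u σ) x := by
  unfold pb
  rw [A.add, A.jac_add, mul_pow, div_div]

theorem pb_period (m : ℕ) (j : Fin r) (σ : M → ℂ) (x : M) :
    A.pb m (Pi.single j (2 * Real.pi * Complex.I)) σ x = σ x := by
  unfold pb
  have h : jac I I (A.act (Pi.single j (2 * Real.pi * Complex.I))) x = 1 := by
    rw [← jac_id (I := I) x]
    exact jac_congr (Eventually.of_forall fun y => A.period j y)
  rw [A.period, h]
  simp

variable [I.Boundaryless] [IsManifold I ω M] [FiniteDimensional ℂ E]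

theorem isAnti_pb {m : ℕ} {σ : M → ℂ} (hσ : IsAnti I m σ) (u : Fin r → ℂ) :
    IsAnti I m (A.pb m u σ) := fun x =>
  IsAntiAt.pull (A.contMDiff u x) (A.jac_ne_zero u x) (hσ _)

/-- The Jacobian of the action, in charts, is holomorphic in both variables. -/
theorem contMDiffAt_jac_div {s s' : M} {p : (Fin r → ℂ) × M} (hs : p.2 ∈ (chartAt H s).source)
    (hs' : A.act p.1 p.2 ∈ (chartAt H s').source) :
    ContMDiffAt (𝓘(ℂ, Fin r → ℂ).prod I) 𝓘(ℂ, ℂ) ω (fun q : (Fin r → ℂ) × M =>
      jac I 𝓘(ℂ, E) (extChartAt I s' ∘ A.act q.1) q.2 /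
        jac I 𝓘(ℂ, E) (extChartAt I s) q.2) p := by
  let G : (Fin r → ℂ) × E → E := fun q => extChartAt I s' (A.act q.1 ((extChartAt I s).symm q.2))
  have hG : ContDiffAt ℂ ω G (p.1, extChartAt I s p.2) := by
    rw [← contMDiffAt_iff_contDiffAt]
    have h1 : ContMDiffAt 𝓘(ℂ, (Fin r → ℂ) × E) (𝓘(ℂ, Fin r → ℂ).prod I) ω
        (fun q : (Fin r → ℂ) × E => (q.1, (extChartAt I s).symm q.2))
        (p.1, extChartAt I s p.2) := by
      refine ContMDiffAt.prodMk ?_ ?_
      · exact contDiff_fst.contMDiff.contMDiffAt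
      · have h2 : ContMDiffAt 𝓘(ℂ, E) I ω (extChartAt I s).symm (extChartAt I s p.2) :=
          (contMDiffOn_extChartAt_symm (I := I) (n := ω) s _ (mem_target hs)).contMDiffAt
            ((isOpen_extChartAt_target s).mem_nhds (mem_target hs))
        exact ContMDiffAt.comp (x := ((p.1, extChartAt I s p.2) : (Fin r → ℂ) × E))
          (g := (extChartAt I s).symm) (f := Prod.snd) h2 contDiff_snd.contMDiff.contMDiffAt
    have h3 : ContMDiffAt 𝓘(ℂ, (Fin r → ℂ) × E) I ω
        (fun q : (Fin r → ℂ) × E => A.act q.1 ((extChartAt I s).symm q.2))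
        (p.1, extChartAt I s p.2) :=
      ContMDiffAt.comp (x := ((p.1, extChartAt I s p.2) : (Fin r → ℂ) × E))
        (g := fun q : (Fin r → ℂ) × M => A.act q.1 q.2) A.holo.contMDiffAt h1
    refine ContMDiffAt.comp (x := ((p.1, extChartAt I s p.2) : (Fin r → ℂ) × E))
      (g := extChartAt I s') ?_ h3
    refine contMDiffAt_extChartAt' ?_
    show A.act p.1 ((extChartAt I s).symm (extChartAt I s p.2)) ∈ _
    rwa [left_inv' hs]
  have hG' := hG.eventually (by simp)
  -- the partial derivative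
  let D : (Fin r → ℂ) × E → ℂ := fun q =>
    ((fderiv ℂ G q).comp (ContinuousLinearMap.inr ℂ (Fin r → ℂ) E)).det
  have hD : ContDiffAt ℂ ω D (p.1, extChartAt I s p.2) := by
    have h1 := hG.fderiv_right (m := ω) (by simp)
    exact contDiff_det.contDiffAt.comp _ (h1.clm_comp contDiffAt_const)
  have hE : ContMDiffAt (𝓘(ℂ, Fin r → ℂ).prod I) 𝓘(ℂ, (Fin r → ℂ) × E) ω
      (fun q : (Fin r → ℂ) × M => (q.1, extChartAt I s q.2)) p := by
    have h1 : ContMDiffAt (𝓘(ℂ, Fin r → ℂ).prod I) 𝓘(ℂ, E) ω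
        (fun q : (Fin r → ℂ) × M => extChartAt I s q.2) p :=
      ContMDiffAt.comp (x := p) (g := extChartAt I s) (f := Prod.snd)
        (contMDiffAt_extChartAt' hs) contMDiffAt_snd
    exact ContMDiffAt.prodMk_space contMDiffAt_fst h1
  have hF : ContMDiffAt (𝓘(ℂ, Fin r → ℂ).prod I) 𝓘(ℂ, ℂ) ω
      (fun q : (Fin r → ℂ) × M => D (q.1, extChartAt I s q.2)) p :=
    ContMDiffAt.comp (x := p) (g := D) hD.contMDiffAt hE
  refine hF.congr_of_eventuallyEq ?_
  have hc1 : ∀ᶠ q in 𝓝 p, q.2 ∈ (chartAt H s).source :=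
    continuous_snd.continuousAt.eventually (source_mem hs)
  have hc2 : ∀ᶠ q in 𝓝 p, A.act q.1 q.2 ∈ (chartAt H s').source :=
    A.continuous.continuousAt.eventually (source_mem hs')
  filter_upwards [hc1, hc2, hE.continuousAt.eventually hG'] with q hq1 hq2 hq3
  have h4 : MDifferentiableAt I 𝓘(ℂ, E) (extChartAt I s' ∘ A.act q.1) q.2 :=
    (mdiffAt_chart hq2).comp _ (A.mdiffAt q.1 q.2)
  rw [jac_eq_fderiv_mul hq1 h4, mul_div_cancel_right₀ _ (jac_chart_ne_zero hq1)]
  congr 1
  have h5 : HasFDerivAt G (fderiv ℂ G (q.1, extChartAt I s q.2)) (q.1, extChartAt I s q.2) :=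
    (hq3.differentiableAt (by simp)).hasFDerivAt
  have h6 : HasFDerivAt (fun w : E => (q.1, w)) (ContinuousLinearMap.inr ℂ (Fin r → ℂ) E)
      (extChartAt I s q.2) := hasFDerivAt_prodMk_right _ _
  exact (h5.comp (extChartAt I s q.2) h6).fderiv

end TorusAction

end Vale.Agent.P299.H904
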