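import Vale.Agent.P299.H904.Growth

/-!
# Decomposition of sections into weight vectors
-/

open scoped Manifold ContDiff Topology
open Set Filter

noncomputable section

set_option linter.unusedSectionVars false

namespace Vale.Agent.P299.H904

variable {E H : Type*} [NormedAddCommGroup E] [NormedSpace ℂ E]
  [TopologicalSpace H] {I : ModelWithCorners ℂ E H}
  {M : Type*} [TopologicalSpace M] [ChartedSpace H M] {r : ℕ}
  [I.Boundaryless] [IsManifold I ω M] [FiniteDimensional ℂ E]

namespace TorusAction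

variable (A : TorusAction I r M)

/-- `σ` is a weight vector, of weight `k`, for the `j`-th factor of the torus. -/
def IsWt (m : ℕ) (σ : M → ℂ) (j : Fin r) (k : ℤ) : Prop :=
  ∀ (c : ℂ) (x : M), A.pb m (Pi.single j c) σ x = Complex.exp (k * c) * σ x

omit [I.Boundaryless] [IsManifold I ω M] [FiniteDimensional ℂ E] in
theorem pb_sum {ι : Type*} (S : Finset ι) (m : ℕ) (u : Fin r → ℂ) (a : ι → ℂ) (σ : ι → M → ℂ)
    (x : M) : A.pb m u (fun y => ∑ i ∈ S, a i * σ i y) x = ∑ i ∈ S, a i * A.pb m u (σ i) x := by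
  unfold pb
  rw [Finset.sum_div]
  exact Finset.sum_congr rfl fun i _ => by ring

omit [I.Boundaryless] [IsManifold I ω M] [FiniteDimensional ℂ E] in
theorem pb_const_mul (m : ℕ) (u : Fin r → ℂ) (a : ℂ) (σ : M → ℂ) (x : M) :
    A.pb m u (fun y => a * σ y) x = a * A.pb m u σ x := by
  unfold pb
  ring

omit [I.Boundaryless] [IsManifold I ω M] [FiniteDimensional ℂ E] in
theorem pb_comm (m : ℕ) (u v : Fin r → ℂ) (σ : M → ℂ) (x : M) :
    A.pb m u (A.pb m v σ) x = A.pb m v (A.pb m u σ) x := by
  rw [← A.pb_add, ← A.pb_add, add_comm]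

omit [I.Boundaryless] [IsManifold I ω M] [FiniteDimensional ℂ E] in
/-- The pull backs of a weight vector under the torus are weight vectors. -/
theorem IsWt.pb {m : ℕ} {σ : M → ℂ} {j : Fin r} {k : ℤ} (h : A.IsWt m σ j k) (v : Fin r → ℂ) :
    A.IsWt m (A.pb m v σ) j k := by
  intro c x
  rw [A.pb_comm]
  have h1 : A.pb m (Pi.single j c) σ = fun y => Complex.exp (k * c) * σ y := funext fun y => h c y
  rw [h1, A.pb_const_mul]

omit [I.Boundaryless] [IsManifold I ω M] [FiniteDimensional ℂ E] in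
theorem IsWt.sum {ι : Type*} {S : Finset ι} {m : ℕ} {σ : ι → M → ℂ} {j : Fin r} {k : ℤ}
    (a : ι → ℂ) (h : ∀ i ∈ S, A.IsWt m (σ i) j k) :
    A.IsWt m (fun y => ∑ i ∈ S, a i * σ i y) j k := by
  intro c x
  rw [A.pb_sum, Finset.mul_sum]
  refine Finset.sum_congr rfl fun i hi => ?_
  rw [h i hi c x]
  ring

variable [CompactSpace M] [T2Space M]

/-- Decomposition with respect to one factor of the torus. -/
theorem exists_decomp_one (j : Fin r) {m : ℕ} {σ : M → ℂ} (hσ : IsAnti I m σ) :
    ∃ (P : ℕ) (τ : Fin P → M → ℂ) (k : Fin P → ℤ), (∀ i, A.IsWt m (τ i) j (k i)) ∧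
      (∀ x, σ x = ∑ i, τ i x) ∧
      ∀ i, ∃ (L : ℕ) (a : Fin L → ℂ) (v : Fin L → Fin r → ℂ),
        τ i = fun y => ∑ l, a l * A.pb m (v l) σ y := by
  obtain ⟨K, hK0, hK⟩ := A.exists_growth j hσ
  choose C hC using hK
  obtain ⟨N, hN⟩ := exists_nat_gt K
  have hd : ∀ x, Differentiable ℂ (fun c : ℂ => A.pb m (Pi.single j c) σ x) := by
    intro x
    have h1 := A.differentiable_pb hσ x
    have h2 : Differentiable ℂ (fun c : ℂ => (Pi.single j c : Fin r → ℂ)) := by
      rw [differentiable_pi]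
      intro i
      rcases eq_or_ne i j with rfl | hij
      · simp
      · simp only [Pi.single_eq_of_ne hij]
        exact differentiable_const _
    exact h1.comp h2
  have hper : ∀ x c, A.pb m (Pi.single j (c + 2 * Real.pi * Complex.I)) σ x =
      A.pb m (Pi.single j c) σ x := by
    intro x c
    have h1 : A.act (Pi.single j (c + 2 * Real.pi * Complex.I)) = A.act (Pi.single j c) :=
      A.act_periodic j c
    simp only [pb, h1]
  have h := fun x => entire_periodic (hd x) (hper x) (hC x) hN hK0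
  choose b hb using h
  set P : ℕ := 2 * N + 1 with hP
  -- the components
  let τ : Fin P → M → ℂ := fun n x => ∑ l : Fin P, ((P : ℂ)⁻¹ *
    Complex.exp (-((((n : ℕ) : ℂ) - N) * (2 * Real.pi * Complex.I * (l : ℕ) / P)))) *
      A.pb m (Pi.single j (2 * Real.pi * Complex.I * (l : ℕ) / P)) σ x
  have hτ : ∀ (n : Fin P) (c : ℂ) (x : M), A.pb m (Pi.single j c) (τ n) x =
      b x n * Complex.exp ((((n : ℕ) : ℂ) - N) * c) := by
    intro n c x
    have h1 := laurent_coeff (hb x) (Finset.mem_range.2 n.2) c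
    rw [← hP] at h1
    rw [← h1]
    simp only [τ]
    rw [A.pb_sum, Finset.mul_sum, ← Fin.sum_univ_eq_sum_range (fun l => (P : ℂ)⁻¹ *
      (Complex.exp (-((((n : ℕ) : ℂ) - N) * (2 * Real.pi * Complex.I * l / P))) *
        A.pb m (Pi.single j (c + 2 * Real.pi * Complex.I * l / P)) σ x)) P]
    refine Finset.sum_congr rfl fun l _ => ?_
    rw [← A.pb_add, ← Pi.single_add, add_comm c]
    ring
  have hτ0 : ∀ (n : Fin P) (x : M), τ n x = b x n := by
    intro n x
    have h1 := hτ n 0 x
    rw [Pi.single_zero, A.pb_zero] at h1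
    simpa using h1
  refine ⟨P, τ, fun n => ((n : ℕ) : ℤ) - N, fun n c x => ?_, fun x => ?_, fun n =>
    ⟨P, _, _, rfl⟩⟩
  · rw [hτ, hτ0]
    push_cast
    ring
  · have h1 := hb x 0
    rw [Pi.single_zero, A.pb_zero] at h1
    rw [h1, ← Fin.sum_univ_eq_sum_range (fun n => b x n * Complex.exp (((n : ℂ) - N) * 0))]
    refine Finset.sum_congr rfl fun n _ => ?_
    rw [hτ0]
    simp

/-- **Weight decomposition.** A holomorphic section of a power of the anticanonical bundle of a
compact manifold is a finite sum of weight vectors of the torus. -/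
theorem exists_decomp {m : ℕ} {σ : M → ℂ} (hσ : IsAnti I m σ) (S : Finset (Fin r)) :
    ∃ (ι : Type) (_ : Fintype ι) (τ : ι → M → ℂ) (k : ι → Fin r → ℤ),
      (∀ i, IsAnti I m (τ i)) ∧ (∀ i, ∀ j ∈ S, A.IsWt m (τ i) j (k i j)) ∧
      ∀ x, σ x = ∑ i, τ i x := by
  classical
  induction S using Finset.induction_on with
  | empty =>
    refine ⟨Unit, inferInstance, fun _ => σ, fun _ _ => 0, fun _ => hσ, ?_, fun x => by simp⟩
    simp
  | insert j S hj ih =>
    obtain ⟨ι, _, τ, k, hτ, hk, hs⟩ := ih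
    choose P τ' k' hw hsum hpb using fun i => A.exists_decomp_one j (hτ i)
    refine ⟨Σ i, Fin (P i), inferInstance, fun q => τ' q.1 q.2,
      fun q => Function.update (k q.1) j (k' q.1 q.2), fun q => ?_, fun q j' hj' => ?_,
      fun x => ?_⟩
    · obtain ⟨L, a, v, h1⟩ := hpb q.1 q.2
      show IsAnti I m (τ' q.1 q.2)
      rw [h1]
      intro x
      exact IsAntiAt.sum fun l _ => (A.isAnti_pb (hτ q.1) (v l) x).const_mul (a l)
    · show A.IsWt m (τ' q.1 q.2) j' (Function.update (k q.1) j (k' q.1 q.2) j')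
      rcases Finset.mem_insert.1 hj' with rfl | hj'S
      · rw [Function.update_self]
        exact hw q.1 q.2
      · have hne : j' ≠ j := fun h => hj (h ▸ hj'S)
        rw [Function.update_of_ne hne]
        obtain ⟨L, a, v, h1⟩ := hpb q.1 q.2
        rw [h1]
        exact IsWt.sum A a fun l _ => IsWt.pb A (hk q.1 j' hj'S) (v l)
    · rw [hs x, Fintype.sum_sigma]
      exact Finset.sum_congr rfl fun i _ => hsum i x

omit [I.Boundaryless] [IsManifold I ω M] [FiniteDimensional ℂ E] [CompactSpace M] [T2Space M] in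
/-- A weight vector for all factors. -/
theorem pb_of_isWt {m : ℕ} {σ : M → ℂ} {k : Fin r → ℤ} (h : ∀ j, A.IsWt m σ j (k j))
    (u : Fin r → ℂ) (x : M) : A.pb m u σ x = Complex.exp (∑ j, k j * u j) * σ x := by
  classical
  have key : ∀ S : Finset (Fin r), ∀ x, A.pb m (∑ j ∈ S, Pi.single j (u j)) σ x =
      Complex.exp (∑ j ∈ S, k j * u j) * σ x := by
    intro S
    induction S using Finset.induction_on with
    | empty => intro x; simp [A.pb_zero]
    | insert j S hj ih =>
      intro x
      rw [Finset.sum_insert hj, Finset.sum_insert hj, A.pb_add, A.pb_comm]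
      have h1 : A.pb m (∑ j ∈ S, Pi.single j (u j)) σ =
          fun y => Complex.exp (∑ j ∈ S, k j * u j) * σ y := funext fun y => ih y
      rw [h1, A.pb_const_mul, h j (u j) x, Complex.exp_add]
      ring
  have h2 : (∑ j, Pi.single j (u j) : Fin r → ℂ) = u := Finset.univ_sum_single u
  have h3 := key Finset.univ x
  rwa [h2] at h3

end TorusAction

end Vale.Agent.P299.H904
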